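import Mathlib

namespace Vale.Agent.Results.P038.A_Bipartite

open Finset BigOperators

variable {V : Type*} [Fintype V] [DecidableEq V]

/-- Oriented graph: no loops and no pair of opposite arcs. -/
structure IsOriented (r : V → V → Prop) : Prop where
  irrefl : ∀ v, ¬ r v v
  asymm : ∀ u v, r u v → ¬ r v u

/-- First out-neighbourhood. -/
noncomputable def N1 (r : V → V → Prop) (v : V) : Finset V := by
  classical exact univ.filter (fun u => r v u)

/-- Second out-neighbourhood: directed distance exactly two. -/
noncomputable def N2 (r : V → V → Prop) (v : V) : Finset V := by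
  classical exact univ.filter (fun w => w ≠ v ∧ ¬ r v w ∧ ∃ u, r v u ∧ r u w)

lemma mem_N1 (r : V → V → Prop) (v u : V) : u ∈ N1 r v ↔ r v u := by
  classical simp [N1]

lemma mem_N2 (r : V → V → Prop) (v w : V) :
    w ∈ N2 r v ↔ w ≠ v ∧ ¬ r v w ∧ ∃ u, r v u ∧ r u w := by
  classical simp [N2]

/-- Skew-symmetric game: a probability vector `y` with `S y ≥ 0`. -/
lemma skew_solution [Nonempty V] (S : V → V → ℝ) (hS : ∀ a b, S a b = - S b a) :
    ∃ y : V → ℝ, (∀ v, 0 ≤ y v) ∧ ∑ v, y v = 1 ∧ ∀ z, 0 ≤ ∑ v, S z v * y v := by
  classical
  let L : (V → ℝ) →ₗ[ℝ] (V → ℝ) :=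
    { toFun := fun y z => ∑ v, S z v * y v
      map_add' := by
        intro a b; funext z; simp [mul_add, Finset.sum_add_distrib]
      map_smul' := by
        intro c a; funext z; simp [Finset.mul_sum, mul_left_comm] }
  let K : Set (V → ℝ) := L '' stdSimplex ℝ V
  let C : Set (V → ℝ) := {u | ∀ z, 0 ≤ u z}
  have hKconv : Convex ℝ K := (convex_stdSimplex ℝ V).linear_image L
  have hKcomp : IsCompact K :=
    (isCompact_stdSimplex ℝ V).image L.continuous_of_finiteDimensional
  have hCconv : Convex ℝ C := by
    intro a ha b hb s t hs ht _ z
    have := ha z; have := hb z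
    simp only [Pi.add_apply, Pi.smul_apply, smul_eq_mul]
    positivity
  have hCclosed : IsClosed C := by
    have : C = ⋂ z, {u : V → ℝ | 0 ≤ u z} := by ext u; simp [C]
    rw [this]
    exact isClosed_iInter (fun z => isClosed_le continuous_const (continuous_apply z))
  by_cases hdisj : Disjoint K C
  · exfalso
    obtain ⟨f, u, v, hfu, huv, hfv⟩ :=
      geometric_hahn_banach_compact_closed hKconv hKcomp hCconv hCclosed hdisj
    have h0C : (0 : V → ℝ) ∈ C := fun _ => le_refl _
    have hv0 : v < 0 := by simpa using hfv 0 h0C
    -- coefficients of f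
    let e : V → (V → ℝ) := fun z => Pi.single z 1
    let φ : V → ℝ := fun z => f (e z)
    have hφ : ∀ z, 0 ≤ φ z := by
      intro z
      by_contra hneg
      push Not at hneg
      -- take t large
      have hmem : ((v / φ z) • e z) ∈ C := by
        intro w
        have hq : 0 ≤ v / φ z := div_nonneg_of_nonpos hv0.le hneg.le
        by_cases hw : w = z
        · subst hw; simp [e, hq]
        · simp [e, hw]
      have := hfv _ hmem
      rw [map_smul, smul_eq_mul] at this
      have h2 : v / φ z * f (e z) = v := by
        change v / φ z * φ z = v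
        exact div_mul_cancel₀ v hneg.ne
      linarith
    have hfsum : ∀ a : V → ℝ, f a = ∑ z, φ z * a z := by
      intro a
      have ha : a = ∑ z, a z • e z := by
        funext w
        simp [e, Finset.sum_apply, Pi.single_apply]
      conv_lhs => rw [ha]
      rw [map_sum]
      refine Finset.sum_congr rfl (fun z _ => ?_)
      rw [map_smul, smul_eq_mul, mul_comm]
    -- K nonempty, f<0 on K, hence φ ≠ 0
    obtain ⟨v0⟩ := ‹Nonempty V›
    have hunit : (Pi.single v0 1 : V → ℝ) ∈ stdSimplex ℝ V := by
      constructor
      · intro w
        by_cases hw : w = v0 <;> simp [hw, Pi.single_apply]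
      · simp [Pi.single_apply]
    have hneg0 := hfu (L (Pi.single v0 1)) ⟨_, hunit, rfl⟩
    have hsumpos : 0 < ∑ z, φ z := by
      refine lt_of_le_of_ne (Finset.sum_nonneg (fun z _ => hφ z)) ?_
      intro hzero
      have hall : ∀ z, φ z = 0 := by
        intro z
        have := (Finset.sum_eq_zero_iff_of_nonneg (fun z _ => hφ z)).1 hzero.symm z (mem_univ z)
        exact this
      have : f (L (Pi.single v0 1)) = 0 := by
        rw [hfsum]; simp [hall]
      linarith
    -- the point y = φ / Σφ
    set T := ∑ z, φ z with hT
    let y : V → ℝ := fun z => φ z / T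
    have hy : y ∈ stdSimplex ℝ V := by
      constructor
      · intro w; exact div_nonneg (hφ w) hsumpos.le
      · simp only [y]; rw [← Finset.sum_div, ← hT]; exact div_self hsumpos.ne'
    have hval : f (L y) = 0 := by
      rw [hfsum]
      have hdouble : ∑ z, ∑ w, φ z * (S z w * φ w) = 0 := by
        have hsw : ∑ z, ∑ w, φ z * (S z w * φ w) = ∑ z, ∑ w, φ w * (S w z * φ z) :=
          Finset.sum_comm
        have hneg : ∑ z, ∑ w, φ w * (S w z * φ z) = - ∑ z, ∑ w, φ z * (S z w * φ w) := by
          rw [← Finset.sum_neg_distrib]
          refine Finset.sum_congr rfl (fun z _ => ?_)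
          rw [← Finset.sum_neg_distrib]
          refine Finset.sum_congr rfl (fun w _ => ?_)
          rw [hS w z]; ring
        linarith
      have : ∀ z, φ z * (L y) z = (∑ w, φ z * (S z w * φ w)) / T := by
        intro z
        change φ z * ∑ v, S z v * (φ v / T) = _
        rw [Finset.sum_div, Finset.mul_sum]
        refine Finset.sum_congr rfl (fun w _ => ?_)
        ring
      simp only [this]
      rw [← Finset.sum_div, hdouble, zero_div]
    have := hfu (L y) ⟨y, hy, rfl⟩
    linarith
  · rw [Set.not_disjoint_iff] at hdisj
    obtain ⟨a, ⟨y, hy, rfl⟩, haC⟩ := hdisj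
    exact ⟨y, hy.1, hy.2, fun z => haC z⟩

/-- Weighted second neighbourhood theorem for complete bipartite orientations
(bipartite tournaments): `side` is the bipartition, two vertices are adjacent iff they lie on
different sides. -/
theorem result [Nonempty V] (r : V → V → Prop) (hr : IsOriented r) (side : V → Prop)
    (hbip : ∀ u v, (r u v ∨ r v u) ↔ ¬ (side u ↔ side v))
    (weight : V → ℝ) (hweight : ∀ v, 0 ≤ weight v) :
    ∃ v, ∑ u ∈ N1 r v, weight u ≤ ∑ u ∈ N2 r v, weight u := by
  classical
  by_cases hsink : ∃ v, ∀ u, ¬ r v u
  · obtain ⟨v, hv⟩ := hsink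
    refine ⟨v, ?_⟩
    have h0 : N1 r v = ∅ := by
      ext u; simp [mem_N1, hv]
    rw [h0, sum_empty]
    exact sum_nonneg (fun u _ => hweight u)
  push Not at hsink
  have hd : ∀ u v, r u v → ¬ (side u ↔ side v) := fun u v h => (hbip u v).1 (Or.inl h)
  -- the auxiliary skew game on `Option V`
  let S : Option V → Option V → ℝ := fun x x' =>
    match x, x' with
    | some a, some b => (if side a ∧ r a b then 1 else 0) - (if side b ∧ r b a then 1 else 0)
    | some a, none => if side a then -1 else 1
    | none, some a => if side a then 1 else -1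
    | none, none => 0
  have hS : ∀ a b, S a b = - S b a := by
    rintro (_ | a) (_ | b)
    · simp [S]
    · simp only [S]; split_ifs <;> norm_num
    · simp only [S]; split_ifs <;> norm_num
    · simp only [S]; ring
  obtain ⟨Y, hY0, hY1, hYS⟩ := skew_solution S hS
  let y : V → ℝ := fun v => Y (some v)
  let t : ℝ := Y none
  have hy0 : ∀ v, 0 ≤ y v := fun v => hY0 _
  have ht0 : 0 ≤ t := hY0 _
  let W : Finset V → ℝ := fun s => ∑ u ∈ s, y u
  have hWnn : ∀ s, 0 ≤ W s := fun s => Finset.sum_nonneg (fun u _ => hy0 u)
  have hWmono : ∀ {s s' : Finset V}, s ⊆ s' → W s ≤ W s' := fun h =>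
    Finset.sum_le_sum_of_subset_of_nonneg h (fun u _ _ => hy0 u)
  let Out : V → Finset V := fun z => univ.filter (fun v => r z v)
  let In : V → Finset V := fun z => univ.filter (fun v => r v z)
  let A : Finset V := univ.filter side
  let B : Finset V := univ.filter (fun v => ¬ side v)
  -- the rows
  have hrowA : ∀ a, side a → ∑ x, S (some a) x * Y x = W (Out a) - t := by
    intro a ha
    rw [Fintype.sum_option]
    have h1 : S (some a) none = -1 := by simp [S, ha]
    have h2 : ∀ v, S (some a) (some v) * Y (some v) = (if r a v then y v else 0) := by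
      intro v
      have h3 : ¬ (side v ∧ r v a) := by
        rintro ⟨hv, hva⟩
        exact hd v a hva (by simp [hv, ha])
      simp only [S, ha, true_and, h3, if_false, y]
      split_ifs <;> ring
    rw [h1]
    simp only [h2]
    have h4 : W (Out a) = ∑ v, (if r a v then y v else 0) := by
      simp only [W, Out]; rw [Finset.sum_filter]
    rw [h4]; simp only [t]; ring
  have hrowB : ∀ b, ¬ side b → ∑ x, S (some b) x * Y x = t - W (In b) := by
    intro b hb
    rw [Fintype.sum_option]
    have h1 : S (some b) none = 1 := by simp [S, hb]
    have h2 : ∀ v, S (some b) (some v) * Y (some v) = - (if r v b then y v else 0) := by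
      intro v
      have h3 : (side v ∧ r v b) ↔ r v b := by
        constructor
        · exact fun h => h.2
        · intro h
          refine ⟨?_, h⟩
          by_contra hv
          exact hd v b h (by simp [hv, hb])
      simp only [S, hb, false_and, if_false, h3, y]
      split_ifs <;> ring
    rw [h1]
    simp only [h2]
    have h4 : W (In b) = ∑ v, (if r v b then y v else 0) := by
      simp only [W, In]; rw [Finset.sum_filter]
    rw [h4, Finset.sum_neg_distrib]; simp only [t]; ring
  have hrowN : ∑ x, S none x * Y x = W A - W B := by
    rw [Fintype.sum_option]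
    have h2 : ∀ v, S none (some v) * Y (some v)
        = (if side v then y v else 0) - (if ¬ side v then y v else 0) := by
      intro v
      by_cases hv : side v <;> simp [S, hv, y]
    simp only [h2, Finset.sum_sub_distrib]
    have h3 : W A = ∑ v, (if side v then y v else 0) := by
      simp only [W, A]; rw [Finset.sum_filter]
    have h4 : W B = ∑ v, (if ¬ side v then y v else 0) := by
      simp only [W, B]; rw [Finset.sum_filter]
    rw [h3, h4]
    simp [S]
  -- the inequalities
  have hF1 : ∀ a, side a → t ≤ W (Out a) := by
    intro a ha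
    have := hYS (some a)
    rw [hrowA a ha] at this
    linarith
  have hF2 : ∀ b, ¬ side b → W (In b) ≤ t := by
    intro b hb
    have := hYS (some b)
    rw [hrowB b hb] at this
    linarith
  have hF3 : W B ≤ W A := by
    have := hYS none
    rw [hrowN] at this
    linarith
  have hAB : W A + W B = ∑ v, y v := by
    simp only [W, A, B]
    exact Finset.sum_filter_add_sum_filter_not univ side y
  have hF4 : t + W A + W B = 1 := by
    have h1 := hY1
    rw [Fintype.sum_option] at h1
    have h2 : ∑ v, Y (some v) = ∑ v, y v := rfl
    rw [h2] at h1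
    simp only [t]
    linarith
  -- complementary slackness
  have hdouble : ∑ x, ∑ x', Y x * (S x x' * Y x') = 0 := by
    have hsw : ∑ z, ∑ w, Y z * (S z w * Y w) = ∑ z, ∑ w, Y w * (S w z * Y z) :=
      Finset.sum_comm
    have hneg : ∑ z, ∑ w, Y w * (S w z * Y z) = - ∑ z, ∑ w, Y z * (S z w * Y w) := by
      rw [← Finset.sum_neg_distrib]
      refine Finset.sum_congr rfl (fun z _ => ?_)
      rw [← Finset.sum_neg_distrib]
      refine Finset.sum_congr rfl (fun w _ => ?_)
      rw [hS w z]; ring
    linarith
  have hslack : ∀ x, Y x * (∑ x', S x x' * Y x') = 0 := by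
    have hsum : ∑ x, Y x * (∑ x', S x x' * Y x') = 0 := by
      rw [← hdouble]
      refine Finset.sum_congr rfl (fun x _ => ?_)
      rw [Finset.mul_sum]
    exact fun x => (Finset.sum_eq_zero_iff_of_nonneg (fun x _ =>
      mul_nonneg (hY0 x) (hYS x))).1 hsum x (mem_univ x)
  have hK1 : ∀ a, side a → 0 < y a → W (Out a) = t := by
    intro a ha hpos
    have h := hslack (some a)
    rw [hrowA a ha] at h
    have := (mul_eq_zero.1 h).resolve_left hpos.ne'
    linarith
  have hK2 : ∀ b, ¬ side b → 0 < y b → W (In b) = t := by
    intro b hb hpos
    have h := hslack (some b)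
    rw [hrowB b hb] at h
    have := (mul_eq_zero.1 h).resolve_left hpos.ne'
    linarith
  -- t is positive
  have htpos : 0 < t := by
    rcases ht0.eq_or_lt with h0 | h0
    · exfalso
      have hA0 : W A = 0 := by
        refine Finset.sum_eq_zero (fun a ha => ?_)
        have ha' : side a := by simpa [A] using ha
        obtain ⟨b, hb⟩ := hsink a
        have hb' : ¬ side b := by
          intro hsb
          exact hd a b hb (by simp [ha', hsb])
        have h1 := hF2 b hb'
        have hmem : a ∈ In b := by simp [In, hb]
        have h2 : y a ≤ W (In b) := Finset.single_le_sum (fun u _ => hy0 u) hmem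
        have h3 := hy0 a
        linarith
      have hB0 := hWnn B
      have hA0' := hWnn A
      linarith
    · exact h0
  have hXeq : W A = W B := by
    have h := hslack none
    rw [hrowN] at h
    have := (mul_eq_zero.1 h).resolve_left htpos.ne'
    linarith
  set X := W A with hX
  have hXB : W B = X := hXeq.symm
  -- masses of the two sides relative to a vertex
  let Opp : V → Finset V := fun u => univ.filter (fun v => ¬ (side v ↔ side u))
  let Same : V → Finset V := fun u => univ.filter (fun v => side v ↔ side u)
  have hOpp : ∀ u, W (Opp u) = X := by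
    intro u
    by_cases hu : side u
    · have : Opp u = B := by
        ext v; simp [Opp, B, hu]
      rw [this]; exact hXB
    · have : Opp u = A := by
        ext v; simp [Opp, A, hu]
      rw [this]
  have hSame : ∀ u, W (Same u) = X := by
    intro u
    by_cases hu : side u
    · have : Same u = A := by
        ext v; simp [Same, A, hu]
      rw [this]
    · have : Same u = B := by
        ext v; simp [Same, B, hu]
      rw [this]; exact hXB
  have hInOut : ∀ u, W (In u) + W (Out u) = X := by
    intro u
    have hdisj : Disjoint (In u) (Out u) := by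
      rw [Finset.disjoint_left]
      intro v hv hv'
      simp only [In, Out, mem_filter, mem_univ, true_and] at hv hv'
      exact hr.asymm _ _ hv hv'
    have hun : In u ∪ Out u = Opp u := by
      ext v
      simp only [In, Out, Opp, mem_union, mem_filter, mem_univ, true_and]
      exact hbip v u
    have : W (In u ∪ Out u) = W (In u) + W (Out u) := by
      simp only [W]; exact Finset.sum_union hdisj
    rw [← this, hun, hOpp]
  -- X - t > 0
  have hXt : 0 < X - t := by
    by_contra hle
    push Not at hle
    -- a positive-mass vertex on side B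
    have hXpos : 0 < X := by
      obtain ⟨v0⟩ := ‹Nonempty V›
      obtain ⟨u0, hu0⟩ := hsink v0
      have hex : ∃ a, side a := by
        by_cases h : side v0
        · exact ⟨v0, h⟩
        · refine ⟨u0, ?_⟩
          by_contra h'
          exact hd v0 u0 hu0 (by simp [h, h'])
      obtain ⟨a, ha⟩ := hex
      have h1 := hF1 a ha
      have h2 := hInOut a
      have h3 := hWnn (In a)
      linarith
    obtain ⟨b, hbB, hbpos⟩ : ∃ b ∈ B, 0 < y b := by
      by_contra hno
      push Not at hno
      have : W B ≤ 0 := Finset.sum_nonpos hno
      linarith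
    have hb' : ¬ side b := by simpa [B] using hbB
    obtain ⟨a, hba⟩ := hsink b
    have ha : side a := by
      by_contra h'
      exact hd b a hba (by simp [hb', h'])
    have h1 := hF1 a ha
    have h2 := hInOut a
    have hmem : b ∈ In a := by simp [In, hba]
    have h3 : y b ≤ W (In a) := Finset.single_le_sum (fun u _ => hy0 u) hmem
    linarith
  -- the unified constant
  let κ : V → ℝ := fun u => if side u then t else X - t
  have hκpos : ∀ u, 0 < κ u := by
    intro u
    by_cases hu : side u <;> simp only [κ, hu, if_true, if_false] <;> assumption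
  have hκOut : ∀ z, 0 < y z → W (Out z) = κ z := by
    intro z hz
    by_cases hs : side z
    · simp only [κ, hs, if_true]; exact hK1 z hs hz
    · simp only [κ, hs, if_false]
      have h1 := hK2 z hs hz
      have h2 := hInOut z
      linarith
  have hκIn : ∀ u w, r u w → W (In w) ≤ κ u := by
    intro u w huw
    by_cases hu : side u
    · have hw : ¬ side w := by
        intro h
        exact hd u w huw (by simp [hu, h])
      simp only [κ, hu, if_true]
      exact hF2 w hw
    · have hw : side w := by
        by_contra h
        exact hd u w huw (by simp [hu, h])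
      simp only [κ, hu, if_false]
      have h1 := hF1 w hw
      have h2 := hInOut w
      linarith
  -- the key inequality
  let In2 : V → Finset V := fun x => univ.filter (fun v => x ∈ N2 r v)
  have hkey : ∀ u, W (In u) ≤ W (In2 u) := by
    intro u
    let C : Finset V := (Same u).filter (fun z => ¬ ∃ w, r z w ∧ r w u)
    -- double counting
    have hC : W C ≤ W (Out u) := by
      have hsub : ∀ z ∈ C, y z * W (Out z) = y z * κ u := by
        intro z hz
        have hz' : side z ↔ side u := by
          have := (Finset.mem_filter.1 hz).1
          simpa [Same] using this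
        rcases (hy0 z).eq_or_lt with h0 | h0
        · rw [← h0]; simp
        · rw [hκOut z h0]
          have : κ z = κ u := by simp only [κ, hz']
          rw [this]
      have hlhs : κ u * W C = ∑ z ∈ C, y z * W (Out z) := by
        simp only [W] at hsub ⊢
        rw [Finset.mul_sum]
        refine Finset.sum_congr rfl (fun z hz => ?_)
        rw [hsub z hz]; ring
      have hstep : ∑ z ∈ C, y z * W (Out z)
          ≤ ∑ z ∈ C, ∑ w ∈ Out u, (if r z w then y z * y w else 0) := by
        refine Finset.sum_le_sum (fun z hz => ?_)
        have hz2 : ¬ ∃ w, r z w ∧ r w u := (Finset.mem_filter.1 hz).2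
        have hz' : side z ↔ side u := by
          have := (Finset.mem_filter.1 hz).1
          simpa [Same] using this
        have hsub' : Out z ⊆ Out u := by
          intro w hw
          have hzw : r z w := by simpa [Out] using hw
          have hnot : ¬ (side u ↔ side w) := by
            intro h
            exact hd z w hzw (hz'.trans h)
          rcases (hbip u w).2 hnot with h | h
          · simpa [Out] using h
          · exact absurd ⟨w, hzw, h⟩ hz2
        have e1 : y z * W (Out z) = ∑ w ∈ Out z, y z * y w := by
          simp only [W]; rw [Finset.mul_sum]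
        have e2 : ∑ w ∈ Out u, (if r z w then y z * y w else 0)
            = ∑ w ∈ (Out u).filter (fun w => r z w), y z * y w :=
          (Finset.sum_filter (fun w => r z w) (fun w => y z * y w)).symm
        have hsub'' : Out z ⊆ (Out u).filter (fun w => r z w) := by
          intro w hw
          refine Finset.mem_filter.2 ⟨hsub' hw, ?_⟩
          simpa [Out] using hw
        rw [e1, e2]
        exact Finset.sum_le_sum_of_subset_of_nonneg hsub''
          (fun w _ _ => mul_nonneg (hy0 z) (hy0 w))
      have hstep2 : ∑ z ∈ C, ∑ w ∈ Out u, (if r z w then y z * y w else 0)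
          ≤ ∑ w ∈ Out u, y w * κ u := by
        rw [Finset.sum_comm]
        refine Finset.sum_le_sum (fun w hw => ?_)
        have huw : r u w := by simpa [Out] using hw
        have h1 : ∑ z ∈ C, (if r z w then y z * y w else 0)
            = y w * ∑ z ∈ C.filter (fun z => r z w), y z := by
          have e : ∑ z ∈ C.filter (fun z => r z w), y z
              = ∑ z ∈ C, (if r z w then y z else 0) := Finset.sum_filter _ _
          rw [e, Finset.mul_sum]
          refine Finset.sum_congr rfl (fun z _ => ?_)
          split_ifs <;> ring
        have h2 : ∑ z ∈ C.filter (fun z => r z w), y z ≤ W (In w) := by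
          apply hWmono
          intro z hz
          have := (Finset.mem_filter.1 hz).2
          simpa [In] using this
        rw [h1]
        exact mul_le_mul_of_nonneg_left (h2.trans (hκIn u w huw)) (hy0 w)
      have hrhs : ∑ w ∈ Out u, y w * κ u = κ u * W (Out u) := by
        simp only [W]; rw [Finset.mul_sum]
        refine Finset.sum_congr rfl (fun z _ => ?_); ring
      have hfinal : κ u * W C ≤ κ u * W (Out u) := by
        rw [hlhs, ← hrhs]
        exact hstep.trans hstep2
      exact le_of_mul_le_mul_left hfinal (hκpos u)
    -- covering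
    have hcover : Same u ⊆ C ∪ In2 u := by
      intro z hz
      have hz' : side z ↔ side u := by simpa [Same] using hz
      by_cases hex : ∃ w, r z w ∧ r w u
      · apply Finset.mem_union_right
        simp only [In2, mem_filter, mem_univ, true_and, mem_N2]
        refine ⟨?_, ?_, hex⟩
        · rintro rfl
          obtain ⟨w, h1, h2⟩ := hex
          exact hr.asymm _ _ h1 h2
        · intro hzu
          exact hd z u hzu hz'
      · apply Finset.mem_union_left
        exact Finset.mem_filter.2 ⟨hz, hex⟩
    have h1 : W (Same u) ≤ W C + W (In2 u) := by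
      have h2 := hWmono hcover
      have h3 : W (C ∪ In2 u) ≤ W C + W (In2 u) := by
        have h4 := Finset.sum_union_inter (s₁ := C) (s₂ := In2 u) (f := y)
        have h5 : 0 ≤ ∑ z ∈ C ∩ In2 u, y z := Finset.sum_nonneg (fun z _ => hy0 z)
        simp only [W]
        linarith
      linarith
    have h2 := hSame u
    have h3 := hInOut u
    linarith
  -- summation
  have htotal : 0 ≤ ∑ v, y v * ((∑ u ∈ N2 r v, weight u) - ∑ u ∈ N1 r v, weight u) := by
    have e1 : ∀ v, ∑ u ∈ N2 r v, weight u = ∑ x, (if x ∈ N2 r v then weight x else 0) := by
      intro v; rw [Finset.sum_ite_mem]; simp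
    have e2 : ∀ v, ∑ u ∈ N1 r v, weight u = ∑ x, (if x ∈ N1 r v then weight x else 0) := by
      intro v; rw [Finset.sum_ite_mem]; simp
    have hswap : ∑ v, y v * ((∑ u ∈ N2 r v, weight u) - ∑ u ∈ N1 r v, weight u)
        = ∑ x, weight x * (W (In2 x) - W (In x)) := by
      calc ∑ v, y v * ((∑ u ∈ N2 r v, weight u) - ∑ u ∈ N1 r v, weight u)
          = ∑ v, ∑ x, y v * ((if x ∈ N2 r v then weight x else 0)
              - (if x ∈ N1 r v then weight x else 0)) := by
            refine Finset.sum_congr rfl (fun v _ => ?_)
            rw [e1, e2, ← Finset.sum_sub_distrib, Finset.mul_sum]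
        _ = ∑ x, ∑ v, y v * ((if x ∈ N2 r v then weight x else 0)
              - (if x ∈ N1 r v then weight x else 0)) := Finset.sum_comm
        _ = ∑ x, weight x * (W (In2 x) - W (In x)) := by
            refine Finset.sum_congr rfl (fun x _ => ?_)
            simp only [W, In2, In, mul_sub, Finset.sum_sub_distrib, Finset.sum_filter,
              Finset.mul_sum, mem_N1]
            congr 1
            · refine Finset.sum_congr rfl (fun v _ => ?_)
              split_ifs <;> ring
            · refine Finset.sum_congr rfl (fun v _ => ?_)
              split_ifs <;> ring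
    rw [hswap]
    exact Finset.sum_nonneg (fun x _ => mul_nonneg (hweight x) (sub_nonneg.2 (hkey x)))
  by_contra hno
  push Not at hno
  have hneg : ∑ v, y v * ((∑ u ∈ N2 r v, weight u) - ∑ u ∈ N1 r v, weight u) < 0 := by
    obtain ⟨v0, hv0⟩ : ∃ v0, 0 < y v0 := by
      by_contra hnone
      push Not at hnone
      have h1 : ∑ v, y v ≤ 0 := Finset.sum_nonpos (fun v _ => hnone v)
      have h2 := hXt
      have h3 : 0 ≤ W B := hWnn B
      have h4 : W A + W B = ∑ v, y v := hAB
      have h5 : 0 ≤ W A := hWnn A
      linarith
    have hle : ∀ v ∈ (univ : Finset V), y v * ((∑ u ∈ N2 r v, weight u) - ∑ u ∈ N1 r v, weight u) ≤ 0 :=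
      fun v _ => mul_nonpos_of_nonneg_of_nonpos (hy0 v) (by linarith [hno v])
    have hlt := mul_neg_of_pos_of_neg hv0 (by linarith [hno v0] :
      (∑ u ∈ N2 r v0, weight u) - ∑ u ∈ N1 r v0, weight u < 0)
    have := Finset.sum_lt_sum (s := (univ : Finset V))
      (f := fun v => y v * ((∑ u ∈ N2 r v, weight u) - ∑ u ∈ N1 r v, weight u))
      (g := fun _ => 0) hle ⟨v0, mem_univ _, hlt⟩
    simpa using this
  linarith

end Vale.Agent.Results.P038.A_Bipartite
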