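import Mathlib

/-!
Seymour's second neighbourhood conjecture for oriented graphs whose missing graph
(the graph of non-adjacent pairs) has all components stars or double stars.
The proof uses a weighted median order of the graph completed by `convenient` fake arcs
and one simultaneous move of a set of vertices.
-/

open Finset

namespace Vale.Agent.Lib.P038.DS

/-- `x` and `y` are distinct and joined by no arc: `xy` is a missing edge. -/
def Missing {V : Type*} (adj : V → V → Prop) (x y : V) : Prop :=
  x ≠ y ∧ ¬ adj x y ∧ ¬ adj y x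

/-- Oriented graph: for all `x y` the arcs `x → y` and `y → x` do not both exist
(for `x = y` this says there is no loop). -/
def Oriented {V : Type*} (adj : V → V → Prop) : Prop :=
  ∀ x y, adj x y → ¬ adj y x

/-- `c` lies on at least two missing edges. -/
def Big {V : Type*} (adj : V → V → Prop) (c : V) : Prop :=
  ∃ a b, a ≠ b ∧ Missing adj c a ∧ Missing adj c b

/-- Every vertex has at most one missing neighbour that lies on at least two missing edges.
Equivalently, each component of the missing graph is a single vertex, a star or a double star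
(a tree of diameter at most three). -/
def MissingDoubleStarForest {V : Type*} (adj : V → V → Prop) : Prop :=
  ∀ x y y', Missing adj x y → Missing adj x y' → Big adj y → Big adj y' → y = y'

section Internal

open Classical

variable {V : Type*}

/-- Integer indicator. -/
noncomputable def ind (p : Prop) : ℤ := if p then 1 else 0

lemma ind_pos {p : Prop} (h : p) : ind p = 1 := if_pos h
lemma ind_neg {p : Prop} (h : ¬ p) : ind p = 0 := if_neg h
lemma ind_nonneg (p : Prop) : 0 ≤ ind p := by unfold ind; split_ifs <;> norm_num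
lemma ind_le_one (p : Prop) : ind p ≤ 1 := by unfold ind; split_ifs <;> norm_num

/-- `v` reaches `y` in at most two steps. -/
def Ball (adj : V → V → Prop) (v y : V) : Prop :=
  y = v ∨ adj v y ∨ ∃ w, adj v w ∧ adj w y

/-- The fake arc out of a big vertex `c` to its missing neighbour `l` is convenient. -/
def Fk (adj : V → V → Prop) (c l : V) : Prop :=
  Missing adj c l ∧ Big adj c ∧ ∀ v, adj v c → Ball adj v l

/-- Bad vertices for `z`. -/
def Bad (adj : V → V → Prop) (z y : V) : Prop := y ≠ z ∧ ¬ Ball adj z y

/-- Second out-neighbours of `z`. -/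
def Two (adj : V → V → Prop) (z y : V) : Prop :=
  y ≠ z ∧ ¬ adj z y ∧ ∃ u, adj z u ∧ adj u y

/-- The partner `u` of `z` blocks a fake arc out of the bad big vertex `p` to a leaf. -/
def Wit (adj : V → V → Prop) (z u p : V) : Prop :=
  Missing adj z u ∧ Bad adj z p ∧ Big adj p ∧ adj u p ∧
    ∃ l, adj z l ∧ Missing adj p l ∧ ¬ Big adj l ∧ ¬ Ball adj u l

/-- Problem vertices. -/
def Pb (adj : V → V → Prop) (z p : V) : Prop := ∃ u, Wit adj z u p

/-- Active partners. -/
def Ac (adj : V → V → Prop) (z u : V) : Prop := ∃ p, Wit adj z u p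

lemma Missing.symm' {adj : V → V → Prop} {x y : V} (h : Missing adj x y) : Missing adj y x :=
  ⟨h.1.symm, h.2.2, h.2.1⟩

lemma not_big_unique {adj : V → V → Prop} {l a b : V} (h : ¬ Big adj l)
    (ha : Missing adj l a) (hb : Missing adj l b) : a = b := by
  by_contra hab
  exact h ⟨a, b, hab, ha, hb⟩

lemma wit_two {adj : V → V → Prop} (ho : Oriented adj) {z u p : V}
    (h : Wit adj z u p) : Two adj z u := by
  obtain ⟨hm, _, _, hup, l, hzl, hpl, hlb, hnb⟩ := h
  refine ⟨hm.1.symm, hm.2.1, l, hzl, ?_⟩
  by_contra hlu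
  have hlu' : l ≠ u := fun e => hnb (Or.inl e)
  have hul : ¬ adj u l := fun e => hnb (Or.inr (Or.inl e))
  have := not_big_unique hlb ⟨hlu', hlu, hul⟩ hpl.symm'
  rw [this] at hup
  exact ho p p hup hup

lemma wit_unique {adj : V → V → Prop} {z u p s : V}
    (h : Wit adj z u p) (hbs : Bad adj z s) (hus : adj u s) : s = p := by
  obtain ⟨_, _, _, _, l, hzl, hpl, hlb, hnb⟩ := h
  have hsl : s ≠ l := fun e => hbs.2 (Or.inr (Or.inl (e ▸ hzl)))
  have hls : ¬ adj l s := fun e => hbs.2 (Or.inr (Or.inr ⟨l, hzl, e⟩))
  have hsl' : ¬ adj s l := fun e => hnb (Or.inr (Or.inr ⟨s, hus, e⟩))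
  exact not_big_unique hlb ⟨hsl.symm, hls, hsl'⟩ hpl.symm'

/-- A non-convenient pair out of a bad big vertex is blocked by a missing neighbour of `z`. -/
lemma blocker {adj : V → V → Prop} {z p l : V} (hp : Bad adj z p) (hbig : Big adj p)
    (hzl : adj z l) (hpl : Missing adj p l) (hnf : ¬ Fk adj p l) :
    ∃ v, Missing adj z v ∧ adj v p ∧ ¬ Ball adj v l := by
  have : ∃ v, adj v p ∧ ¬ Ball adj v l := by
    by_contra hcon
    push Not at hcon
    exact hnf ⟨hpl, hbig, hcon⟩
  obtain ⟨v, hvp, hvl⟩ := this
  refine ⟨v, ⟨?_, ?_, ?_⟩, hvp, hvl⟩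
  · rintro rfl
    exact hp.2 (Or.inr (Or.inl hvp))
  · intro e
    exact hp.2 (Or.inr (Or.inr ⟨v, e, hvp⟩))
  · intro e
    exact hvl (Or.inr (Or.inr ⟨z, e, hzl⟩))

lemma pb_of_not_fk {adj : V → V → Prop} {z p l : V} (hp : Bad adj z p) (hbig : Big adj p)
    (hzl : adj z l) (hpl : Missing adj p l) (hlb : ¬ Big adj l) (hnf : ¬ Fk adj p l) :
    Pb adj z p := by
  obtain ⟨v, hm, hvp, hvl⟩ := blocker hp hbig hzl hpl hnf
  exact ⟨v, hm, hp, hbig, hvp, l, hzl, hpl, hlb, hvl⟩

/-- Weighted count of forward pairs for a position function. -/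
noncomputable def Wt (w : V → V → ℤ) [Fintype V] (pos : V → ℤ) : ℤ :=
  ∑ x, ∑ y, if pos x < pos y then w x y else 0

/-- Move all vertices of `M` above level `lo` in front of the other vertices above `lo`. -/
noncomputable def mvS (pos : V → ℤ) (M : V → Prop) (lo C : ℤ) : V → ℤ :=
  fun v => if lo < pos v ∧ ¬ M v then pos v + C else pos v

lemma mvS_inj {pos : V → ℤ} (hp : Function.Injective pos) (M : V → Prop) {lo C : ℤ}
    (hC : ∀ v, pos v - lo < C) : Function.Injective (mvS pos M lo C) := by
  intro x y h
  unfold mvS at h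
  split_ifs at h with h1 h2 h2
  · exact hp (by omega)
  · have := hC y
    omega
  · have := hC x
    omega
  · exact hp h

lemma Wt_mvS [Fintype V] (w : V → V → ℤ) {pos : V → ℤ} (hp : Function.Injective pos)
    (M : V → Prop) {lo C : ℤ} (hC : ∀ v, pos v - lo < C) :
    Wt w (mvS pos M lo C) = Wt w pos +
      ∑ x, ∑ y, if M x ∧ ¬ M y ∧ lo < pos y ∧ pos y < pos x then w x y - w y x else 0 := by
  have key : ∀ x y, (if mvS pos M lo C x < mvS pos M lo C y then w x y else 0) =
      (if pos x < pos y then w x y else 0)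
        + (if M x ∧ ¬ M y ∧ lo < pos y ∧ pos y < pos x then w x y else 0)
        - (if M y ∧ ¬ M x ∧ lo < pos x ∧ pos x < pos y then w x y else 0) := by
    intro x y
    by_cases hxy : x = y
    · subst hxy
      simp
    have hne : pos x ≠ pos y := fun h => hxy (hp h)
    have hx := hC x
    have hy := hC y
    unfold mvS
    by_cases hMx : M x <;> by_cases hMy : M y <;>
      simp only [hMx, hMy, not_true_eq_false, not_false_eq_true, and_false, and_true, true_and,
        false_and, if_false] <;> split_ifs <;> omega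
  unfold Wt
  simp only [key, Finset.sum_sub_distrib, Finset.sum_add_distrib]
  have h2 : ∑ x : V, ∑ y : V, (if M y ∧ ¬ M x ∧ lo < pos x ∧ pos x < pos y then w x y else 0) =
      ∑ x : V, ∑ y : V, (if M x ∧ ¬ M y ∧ lo < pos y ∧ pos y < pos x then w y x else 0) :=
    Finset.sum_comm
  have h3 : ∀ x y : V, (if M x ∧ ¬ M y ∧ lo < pos y ∧ pos y < pos x then w x y - w y x else 0) =
      (if M x ∧ ¬ M y ∧ lo < pos y ∧ pos y < pos x then w x y else 0) -
      (if M x ∧ ¬ M y ∧ lo < pos y ∧ pos y < pos x then w y x else 0) := by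
    intro x y
    split_ifs <;> simp
  rw [h2]
  simp only [h3, Finset.sum_sub_distrib]
  ring

lemma Wt_le [Fintype V] (w : V → V → ℤ) (pos : V → ℤ) :
    Wt w pos ≤ ∑ x, ∑ y, |w x y| :=
  Finset.sum_le_sum fun x _ => Finset.sum_le_sum fun y _ => by
    split_ifs
    · exact le_abs_self _
    · exact abs_nonneg _

lemma exists_inj [Fintype V] : ∃ pos : V → ℤ, Function.Injective pos := by
  refine ⟨fun x => ((Fintype.equivFin V x : ℕ) : ℤ), ?_⟩
  intro x y h
  have h' : ((Fintype.equivFin V x : ℕ) : ℤ) = ((Fintype.equivFin V y : ℕ) : ℤ) := h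
  have : ((Fintype.equivFin V x : ℕ)) = (Fintype.equivFin V y : ℕ) := by exact_mod_cast h'
  exact (Fintype.equivFin V).injective (Fin.ext this)

lemma exists_max_pos [Fintype V] (w : V → V → ℤ) :
    ∃ pos : V → ℤ, Function.Injective pos ∧ ∀ pos', Function.Injective pos' →
      Wt w pos' ≤ Wt w pos := by
  obtain ⟨ub, ⟨pos, hp, rfl⟩, hub⟩ := Int.exists_greatest_of_bdd
    (P := fun t => ∃ pos : V → ℤ, Function.Injective pos ∧ Wt w pos = t)
    ⟨∑ x, ∑ y, |w x y|, by
      rintro t ⟨pos, _, rfl⟩
      exact Wt_le w pos⟩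
    (by
      obtain ⟨pos, hp⟩ := exists_inj (V := V)
      exact ⟨_, pos, hp, rfl⟩)
  exact ⟨pos, hp, fun pos' hp' => hub _ ⟨pos', hp', rfl⟩⟩

/-- Small parameter `K = |V|^2 + 1`. -/
noncomputable def kK (V : Type*) [Fintype V] : ℤ := (Fintype.card V : ℤ) ^ 2 + 1

/-- Large parameter `N = K |V|^2 + 1`. -/
noncomputable def nN (V : Type*) [Fintype V] : ℤ := kK V * (Fintype.card V : ℤ) ^ 2 + 1

/-- The weight defect of a fake arc into `y`. -/
noncomputable def eps [Fintype V] (adj : V → V → Prop) (y : V) : ℤ :=
  if Big adj y then kK V else 1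

/-- Real arcs have weight `N`; convenient fake arcs into `y` have weight `N - eps y`. -/
noncomputable def wgt [Fintype V] (adj : V → V → Prop) (x y : V) : ℤ :=
  nN V * ind (adj x y) + (nN V - eps adj y) * ind (Fk adj x y)

/-- Signed real arc count. -/
noncomputable def dl (adj : V → V → Prop) (b y : V) : ℤ := ind (adj b y) - ind (adj y b)

/-- Signed arc count including fake arcs. -/
noncomputable def tt (adj : V → V → Prop) (b y : V) : ℤ :=
  dl adj b y + ind (Fk adj b y) - ind (Fk adj y b)

/-- The defect of fake weights. -/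
noncomputable def ee [Fintype V] (adj : V → V → Prop) (x y : V) : ℤ :=
  eps adj y * ind (Fk adj x y) - eps adj x * ind (Fk adj y x)

lemma wgt_sub [Fintype V] (adj : V → V → Prop) (x y : V) :
    wgt adj x y - wgt adj y x = nN V * tt adj x y - ee adj x y := by
  unfold wgt tt dl ee
  ring

/-- The summand for the final count. -/
noncomputable def kap (adj : V → V → Prop) (z y : V) : ℤ :=
  ind (adj z y) - ind (Two adj z y) - ind (Pb adj z y) + ind (Ac adj z y)

lemma ball_of_two {adj : V → V → Prop} {z y : V} (h : Two adj z y) : Ball adj z y :=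
  Or.inr (Or.inr h.2.2)

lemma two_or_bad {adj : V → V → Prop} {z y : V} (hy : y ≠ z) (h : ¬ adj z y) :
    Two adj z y ∨ Bad adj z y := by
  by_cases hw : ∃ u, adj z u ∧ adj u y
  · exact Or.inl ⟨hy, h, hw⟩
  · refine Or.inr ⟨hy, ?_⟩
    rintro (e | e | e)
    · exact hy e
    · exact h e
    · exact hw e

lemma kap_of_adj {adj : V → V → Prop} {z y : V} (hzy : adj z y)
    (ho : Oriented adj) : kap adj z y = 1 := by
  have hn2 : ¬ Two adj z y := fun e => e.2.1 hzy
  have hnq : ¬ Pb adj z y := by
    rintro ⟨u, hu⟩
    exact hu.2.1.2 (Or.inr (Or.inl hzy))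
  have hna : ¬ Ac adj z y := by
    rintro ⟨p, hp⟩
    exact hn2 (wit_two ho hp)
  unfold kap
  rw [ind_pos hzy, ind_neg hn2, ind_neg hnq, ind_neg hna]
  norm_num

lemma kap_of_bad_not_pb {adj : V → V → Prop} (ho : Oriented adj)
    {z b : V} (hb : Bad adj z b) (hnp : ¬ Pb adj z b) : kap adj z b = 0 := by
  have h1 : ¬ adj z b := fun e => hb.2 (Or.inr (Or.inl e))
  have h2 : ¬ Two adj z b := fun e => hb.2 (ball_of_two e)
  have h3 : ¬ Ac adj z b := by
    rintro ⟨p, hp⟩
    exact h2 (wit_two ho hp)
  unfold kap
  rw [ind_neg h1, ind_neg h2, ind_neg hnp, ind_neg h3]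
  norm_num

lemma kap_self {adj : V → V → Prop} (ho : Oriented adj) (z : V) : kap adj z z = 0 := by
  have h1 : ¬ adj z z := fun e => ho z z e e
  have h2 : ¬ Two adj z z := fun e => e.1 rfl
  have h3 : ¬ Pb adj z z := by
    rintro ⟨u, hu⟩
    exact hu.2.1.1 rfl
  have h4 : ¬ Ac adj z z := by
    rintro ⟨p, hp⟩
    exact hp.1.1 rfl
  unfold kap
  rw [ind_neg h1, ind_neg h2, ind_neg h3, ind_neg h4]
  norm_num

/-- The vertices that are moved. -/
def Ms (adj : V → V → Prop) (z x : V) : Prop := x = z ∨ (Bad adj z x ∧ ¬ Pb adj z x)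

/-- The defect pairs. -/
def Dfc (adj : V → V → Prop) (z x y : V) : Prop :=
  (adj z y ∧ Missing adj x y ∧ ¬ Fk adj x y) ∨ (Ac adj z y ∧ Fk adj y x ∧ ¬ Fk adj x y)

lemma Ms_kap {adj : V → V → Prop} (ho : Oriented adj) {z x : V} (h : Ms adj z x) :
    kap adj z x = 0 := by
  rcases h with rfl | ⟨h1, h2⟩
  · exact kap_self ho _
  · exact kap_of_bad_not_pb ho h1 h2

lemma tt_ge_neg_one {adj : V → V → Prop} (ho : Oriented adj) {x y : V} (hxy : x ≠ y) :
    -1 ≤ tt adj x y := by
  unfold tt dl
  by_cases h1 : adj x y
  · have h2 : ¬ adj y x := ho x y h1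
    have h3 : ¬ Fk adj y x := fun e => e.1.2.2 h1
    rw [ind_pos h1, ind_neg h2, ind_neg h3]
    have := ind_nonneg (Fk adj x y)
    omega
  · by_cases h2 : adj y x
    · have h3 : ¬ Fk adj x y := fun e => e.1.2.2 h2
      have h4 : ¬ Fk adj y x := fun e => e.1.2.1 h2
      rw [ind_neg h1, ind_pos h2, ind_neg h3, ind_neg h4]
      norm_num
    · rw [ind_neg h1, ind_neg h2]
      have := ind_nonneg (Fk adj x y)
      have := ind_le_one (Fk adj y x)
      omega

/-- Pointwise comparison between the summand and the signed arc count. -/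
lemma kap_le_tt {adj : V → V → Prop} (ho : Oriented adj) {z x y : V}
    (hx : Ms adj z x) (hy : ¬ Ms adj z y) :
    kap adj z y ≤ tt adj x y + ind (Dfc adj z x y) := by
  have hxy : x ≠ y := by
    rintro rfl
    exact hy hx
  have hyz : y ≠ z := by
    rintro rfl
    exact hy (Or.inl rfl)
  have hd0 := ind_nonneg (Dfc adj z x y)
  by_cases hzy : adj z y
  · rw [kap_of_adj hzy ho]
    rcases hx with rfl | ⟨hb, hnp⟩
    · have h1 : ¬ Fk adj x y := fun e => e.1.2.1 hzy
      have h2 : ¬ Fk adj y x := fun e => e.1.2.2 hzy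
      unfold tt dl
      rw [ind_pos hzy, ind_neg (ho x y hzy), ind_neg h1, ind_neg h2]
      omega
    · have h1 : ¬ adj y x := fun e => hb.2 (Or.inr (Or.inr ⟨y, hzy, e⟩))
      have h2 : ¬ Fk adj y x := fun e => hb.2 (e.2.2 z hzy)
      unfold tt dl
      rw [ind_neg h1, ind_neg h2]
      by_cases h3 : adj x y
      · rw [ind_pos h3]
        have := ind_nonneg (Fk adj x y)
        omega
      · rw [ind_neg h3]
        by_cases h4 : Fk adj x y
        · rw [ind_pos h4]
          omega
        · have hm : Missing adj x y := ⟨hxy, h3, h1⟩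
          have hdf : Dfc adj z x y := Or.inl ⟨hzy, hm, h4⟩
          rw [ind_neg h4, ind_pos hdf]
          omega
  · by_cases hac : Ac adj z y
    · have h2 : Two adj z y := by
        obtain ⟨p, hw⟩ := hac
        exact wit_two ho hw
      have hnq : ¬ Pb adj z y := by
        rintro ⟨u, hu⟩
        exact hu.2.1.2 (ball_of_two h2)
      have hk : kap adj z y = 0 := by
        unfold kap
        rw [ind_neg hzy, ind_pos h2, ind_neg hnq, ind_pos hac]
        norm_num
      rw [hk]
      have hyx : ¬ adj y x := by
        intro e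
        obtain ⟨p, hw⟩ := hac
        rcases hx with rfl | ⟨hb, hnp⟩
        · exact hw.1.2.2 e
        · have := wit_unique hw hb e
          subst this
          exact hnp ⟨y, hw⟩
      unfold tt dl
      rw [ind_neg hyx]
      by_cases h3 : adj x y
      · have h4 : ¬ Fk adj y x := fun e => e.1.2.2 h3
        rw [ind_pos h3, ind_neg h4]
        have := ind_nonneg (Fk adj x y)
        omega
      · rw [ind_neg h3]
        by_cases h4 : Fk adj x y
        · rw [ind_pos h4]
          have := ind_le_one (Fk adj y x)
          omega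
        · rw [ind_neg h4]
          by_cases h5 : Fk adj y x
          · have hdf : Dfc adj z x y := Or.inr ⟨hac, h5, h4⟩
            rw [ind_pos h5, ind_pos hdf]
            omega
          · rw [ind_neg h5]
            omega
    · have hk : kap adj z y ≤ -1 := by
        unfold kap
        rw [ind_neg hzy, ind_neg hac]
        have h3 := ind_nonneg (Pb adj z y)
        have h4 := ind_nonneg (Two adj z y)
        rcases two_or_bad hyz hzy with h | h
        · rw [ind_pos h] at *
          omega
        · have hq : Pb adj z y := by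
            by_contra hq
            exact hy (Or.inr ⟨h, hq⟩)
          rw [ind_pos hq] at *
          omega
      have := tt_ge_neg_one ho hxy
      omega

/-- A defect partner is a missing neighbour of `x`, and it is big when `x` is big. -/
lemma dfc_big {adj : V → V → Prop} {z x y : V} (hx : Ms adj z x) (hd : Dfc adj z x y)
    (hbx : Big adj x) : Missing adj x y ∧ Big adj y ∧ ¬ Fk adj x y := by
  rcases hd with ⟨h1, h2, h3⟩ | ⟨_, h2, h3⟩
  · refine ⟨h2, ?_, h3⟩
    by_contra hby
    rcases hx with rfl | ⟨hb, hnp⟩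
    · exact h2.2.1 h1
    · exact hnp (pb_of_not_fk hb hbx h1 h2 hby h3)
  · exact ⟨h2.1.symm', h2.2.1, h3⟩

lemma dfc_missing {adj : V → V → Prop} {z x y : V} (hd : Dfc adj z x y) : Missing adj x y := by
  rcases hd with ⟨_, h2, _⟩ | ⟨_, h2, _⟩
  · exact h2
  · exact h2.1.symm'

lemma sum_dfc_le [Fintype V] {adj : V → V → Prop} (hs : MissingDoubleStarForest adj) {z x : V}
    (hx : Ms adj z x) (J : Finset V) : ∑ y ∈ J, ind (Dfc adj z x y) ≤ 1 := by
  have : ∑ y ∈ J, ind (Dfc adj z x y) = ((J.filter (fun y => Dfc adj z x y)).card : ℤ) := by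
    unfold ind
    rw [Finset.sum_boole]
  rw [this]
  have hc : (J.filter (fun y => Dfc adj z x y)).card ≤ 1 := by
    rw [Finset.card_le_one]
    intro y hy y' hy'
    have h1 := (Finset.mem_filter.mp hy).2
    have h2 := (Finset.mem_filter.mp hy').2
    by_cases hbx : Big adj x
    · obtain ⟨m1, b1, _⟩ := dfc_big hx h1 hbx
      obtain ⟨m2, b2, _⟩ := dfc_big hx h2 hbx
      exact hs x y y' m1 m2 b1 b2
    · exact not_big_unique hbx (dfc_missing h1) (dfc_missing h2)
  exact_mod_cast hc

lemma card_pb_le_card_ac [Fintype V] {adj : V → V → Prop} (z : V) :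
    (univ.filter (Pb adj z)).card ≤ (univ.filter (Ac adj z)).card := by
  choose! u hu using (fun p (h : Pb adj z p) => h)
  apply Finset.card_le_card_of_injOn u
  · intro p hp
    have hp' := (Finset.mem_filter.mp hp).2
    exact Finset.mem_filter.mpr ⟨Finset.mem_univ _, p, hu p hp'⟩
  · intro p hp q hq e
    have hp' := (Finset.mem_filter.mp (Finset.mem_coe.mp hp)).2
    have hq' := (Finset.mem_filter.mp (Finset.mem_coe.mp hq)).2
    have h1 := hu p hp'
    have h2 := hu q hq'
    rw [e] at h1
    exact wit_unique h2 h1.2.1 h1.2.2.2.1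

/-- The partial sum of the summand above a level. -/
noncomputable def Psi [Fintype V] (adj : V → V → Prop) (z : V) (pos : V → ℤ) (t : ℤ) : ℤ :=
  ∑ y, if ¬ Ms adj z y ∧ t < pos y then kap adj z y else 0

/-- Main counting statement: the total of the summand is nonpositive. -/
lemma total_le [Fintype V] [Nonempty V] {adj : V → V → Prop} (ho : Oriented adj)
    (hs : MissingDoubleStarForest adj) {pos : V → ℤ} {z : V} (hp : Function.Injective pos)
    (hmax : ∀ pos', Function.Injective pos' → Wt (wgt adj) pos' ≤ Wt (wgt adj) pos)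
    (hlast : ∀ y, y ≠ z → pos y < pos z) : ∑ y, kap adj z y ≤ 0 := by
  by_contra hpos
  have hn : (0 : ℤ) ≤ (Fintype.card V : ℤ) := by positivity
  -- a level below all positions
  obtain ⟨m, -, hm⟩ := Finset.exists_min_image (univ : Finset V) pos Finset.univ_nonempty
  have hPsi0 : Psi adj z pos (pos m - 1) = ∑ y, kap adj z y := by
    unfold Psi
    apply Finset.sum_congr rfl
    intro y _
    have := hm y (Finset.mem_univ _)
    by_cases hy : Ms adj z y
    · rw [Ms_kap ho hy]
      simp [hy]
    · rw [if_pos ⟨hy, by omega⟩]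
  have hzero : ∀ t, pos z ≤ t → Psi adj z pos t = 0 := by
    intro t ht
    unfold Psi
    apply Finset.sum_eq_zero
    intro y _
    rw [if_neg]
    rintro ⟨h1, h2⟩
    have hyz : y ≠ z := by
      rintro rfl
      exact h1 (Or.inl rfl)
    have := hlast y hyz
    omega
  -- the largest level with positive partial sum
  obtain ⟨lo, hlo1, hlo2⟩ := Int.exists_greatest_of_bdd
    (P := fun t => 1 ≤ Psi adj z pos t)
    ⟨pos z, by
      intro t ht
      by_contra hcon
      rw [hzero t (by omega)] at ht
      omega⟩
    ⟨pos m - 1, by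
      show 1 ≤ Psi adj z pos (pos m - 1)
      rw [hPsi0]
      omega⟩
  have hloz : lo < pos z := by
    by_contra hcon
    rw [hzero lo (by omega)] at hlo1
    omega
  set M : V → Prop := Ms adj z with hMdef
  set C : V → V → Prop := fun x y => M x ∧ ¬ M y ∧ lo < pos y ∧ pos y < pos x with hCdef
  -- the sum over a window for a moved vertex is at least one
  have hK : ∀ x, M x → lo < pos x → 1 ≤ ∑ y, if C x y then kap adj z y else 0 := by
    intro x hx hxlo
    have hle : Psi adj z pos (pos x) ≤ 0 := by
      by_contra hcon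
      have := hlo2 (pos x) (show 1 ≤ Psi adj z pos (pos x) by omega)
      omega
    have hsplit : Psi adj z pos lo = (∑ y, if C x y then kap adj z y else 0) +
        Psi adj z pos (pos x) := by
      unfold Psi
      rw [← Finset.sum_add_distrib]
      apply Finset.sum_congr rfl
      intro y _
      by_cases hy : M y
      · have h1 : ¬ (¬ Ms adj z y ∧ lo < pos y) := fun e => e.1 hy
        have h2 : ¬ C x y := fun e => e.2.1 hy
        have h3 : ¬ (¬ Ms adj z y ∧ pos x < pos y) := fun e => e.1 hy
        rw [if_neg h1, if_neg h2, if_neg h3]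
        simp
      · have hne : pos y ≠ pos x := by
          intro e
          have := hp e
          subst this
          exact hy hx
        have hy' : ¬ Ms adj z y := hy
        by_cases h1 : lo < pos y
        · by_cases h2 : pos y < pos x
          · have hc : C x y := ⟨hx, hy, h1, h2⟩
            have h3 : ¬ (¬ Ms adj z y ∧ pos x < pos y) := fun e => by omega
            rw [if_pos ⟨hy', h1⟩, if_pos hc, if_neg h3]
            simp
          · have hc : ¬ C x y := fun e => h2 e.2.2.2
            have h3 : pos x < pos y := by omega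
            rw [if_pos ⟨hy', h1⟩, if_neg hc, if_pos ⟨hy', h3⟩]
            simp
        · have h3 : ¬ (¬ Ms adj z y ∧ lo < pos y) := fun e => h1 e.2
          have hc : ¬ C x y := fun e => h1 e.2.2.1
          have h4 : ¬ (¬ Ms adj z y ∧ pos x < pos y) := fun e => by omega
          rw [if_neg h3, if_neg hc, if_neg h4]
          simp
    omega
  -- the lower bound for the signed arc counts
  have hinner : ∀ x, M x → lo < pos x →
      1 - (∑ y, if C x y then ind (Dfc adj z x y) else 0) ≤
        ∑ y, if C x y then tt adj x y else 0 := by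
    intro x hx hxlo
    have h1 := hK x hx hxlo
    have h2 : (∑ y, if C x y then kap adj z y else 0) ≤
        (∑ y, if C x y then tt adj x y else 0) + ∑ y, if C x y then ind (Dfc adj z x y) else 0 := by
      rw [← Finset.sum_add_distrib]
      apply Finset.sum_le_sum
      intro y _
      by_cases hc : C x y
      · rw [if_pos hc, if_pos hc, if_pos hc]
        exact kap_le_tt ho hx hc.2.1
      · rw [if_neg hc, if_neg hc, if_neg hc]
        simp
    omega
  have hdf1 : ∀ x, M x → (∑ y, if C x y then ind (Dfc adj z x y) else 0) ≤ 1 := by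
    intro x hx
    have h1 : (∑ y, if C x y then ind (Dfc adj z x y) else 0) =
        ∑ y ∈ univ.filter (C x), ind (Dfc adj z x y) := by
      rw [Finset.sum_filter]
    rw [h1]
    exact sum_dfc_le hs hx _
  -- the inner sums are nonnegative
  have hinner0 : ∀ x, 0 ≤ ∑ y, if C x y then tt adj x y else 0 := by
    intro x
    by_cases hx : M x ∧ lo < pos x
    · have h1 := hinner x hx.1 hx.2
      have h2 := hdf1 x hx.1
      omega
    · apply le_of_eq
      symm
      apply Finset.sum_eq_zero
      intro y _
      rw [if_neg]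
      rintro ⟨h1, _, h3, h4⟩
      exact hx ⟨h1, by omega⟩
  -- the move
  obtain ⟨cC, hcC⟩ : ∃ cC : ℤ, ∀ v, pos v - lo < cC := by
    refine ⟨(∑ v, |pos v - lo|) + 1, fun v => ?_⟩
    have h1 : |pos v - lo| ≤ ∑ v, |pos v - lo| :=
      Finset.single_le_sum (f := fun v => |pos v - lo|) (fun _ _ => abs_nonneg _)
        (Finset.mem_univ v)
    have h2 := le_abs_self (pos v - lo)
    omega
  have hmove := hmax _ (mvS_inj hp M hcC)
  rw [Wt_mvS _ hp M hcC] at hmove
  have hmove' : (∑ x, ∑ y, if C x y then wgt adj x y - wgt adj y x else 0) ≤ 0 := by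
    have : ∀ a b : ℤ, a + b ≤ a → b ≤ 0 := fun a b h => by omega
    exact this _ _ hmove
  -- decomposition
  set T : ℤ := ∑ x, ∑ y, if C x y then tt adj x y else 0 with hT
  set Dv : ℤ := ∑ x, ∑ y, if C x y then ee adj x y else 0 with hDv
  have hdecomp : (∑ x, ∑ y, if C x y then wgt adj x y - wgt adj y x else 0) =
      nN V * T - Dv := by
    rw [hT, hDv, Finset.mul_sum, ← Finset.sum_sub_distrib]
    apply Finset.sum_congr rfl
    intro x _
    rw [Finset.mul_sum, ← Finset.sum_sub_distrib]
    apply Finset.sum_congr rfl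
    intro y _
    by_cases hc : C x y
    · rw [if_pos hc, if_pos hc, if_pos hc, wgt_sub]
    · rw [if_neg hc, if_neg hc, if_neg hc]
      simp
  rw [hdecomp] at hmove'
  have hT0 : 0 ≤ T := Finset.sum_nonneg fun x _ => hinner0 x
  have heps_le : ∀ y, eps adj y ≤ kK V := by
    intro y
    unfold eps kK
    split_ifs
    · exact le_rfl
    · have := sq_nonneg (Fintype.card V : ℤ)
      omega
  have heps_pos : ∀ y, 1 ≤ eps adj y := by
    intro y
    unfold eps kK
    split_ifs
    · have := sq_nonneg (Fintype.card V : ℤ)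
      omega
    · exact le_rfl
  -- splitting the defect
  set Ot : ℤ := ∑ x, ∑ y, if C x y then eps adj y * ind (Fk adj x y) else 0 with hOt
  set In : ℤ := ∑ x, ∑ y, if C x y then eps adj x * ind (Fk adj y x) else 0 with hIn
  have hDvsplit : Dv = Ot - In := by
    rw [hDv, hOt, hIn, ← Finset.sum_sub_distrib]
    apply Finset.sum_congr rfl
    intro x _
    rw [← Finset.sum_sub_distrib]
    apply Finset.sum_congr rfl
    intro y _
    by_cases hc : C x y
    · rw [if_pos hc, if_pos hc, if_pos hc]
      rfl
    · rw [if_neg hc, if_neg hc, if_neg hc]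
      simp
  have hIn0 : 0 ≤ In := by
    apply Finset.sum_nonneg
    intro x _
    apply Finset.sum_nonneg
    intro y _
    split_ifs
    · have := heps_pos x
      have := ind_nonneg (Fk adj y x)
      positivity
    · exact le_rfl
  have hpairs : (∑ _x : V, ∑ _y : V, (1 : ℤ)) = (Fintype.card V : ℤ) ^ 2 := by
    simp [sq]
  have hOt_le : Ot ≤ kK V * (Fintype.card V : ℤ) ^ 2 := by
    rw [← hpairs, Finset.mul_sum]
    apply Finset.sum_le_sum
    intro x _
    rw [Finset.mul_sum]
    apply Finset.sum_le_sum
    intro y _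
    have h1 := heps_le y
    have h2 := heps_pos y
    have h3 := ind_nonneg (Fk adj x y)
    have h4 := ind_le_one (Fk adj x y)
    have hK0 : 0 ≤ kK V := by linarith
    split_ifs
    · nlinarith
    · linarith
  -- T is zero
  have hTle : T ≤ 0 := by
    by_contra hcon
    have h1 : 1 ≤ T := by omega
    have h2 : nN V * 1 ≤ nN V * T := by
      apply mul_le_mul_of_nonneg_left h1
      unfold nN kK
      positivity
    have h3 : nN V = kK V * (Fintype.card V : ℤ) ^ 2 + 1 := rfl
    rw [hDvsplit] at hmove'
    linarith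
  have hTz : T = 0 := le_antisymm hTle hT0
  have hDv0 : 0 ≤ Ot - In := by
    rw [hTz, hDvsplit] at hmove'
    linarith
  -- each moved vertex has a defect pair
  have hinnerz : ∀ x, (∑ y, if C x y then tt adj x y else 0) = 0 := by
    have := (Finset.sum_eq_zero_iff_of_nonneg (fun x _ => hinner0 x)).mp hTz
    intro x
    exact this x (Finset.mem_univ _)
  have hdefect : ∀ x, M x → lo < pos x → ∃ y, C x y ∧ Dfc adj z x y := by
    intro x hx hxlo
    by_contra hcon
    push Not at hcon
    have h1 := hinner x hx hxlo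
    rw [hinnerz x] at h1
    have h2 : (∑ y, if C x y then ind (Dfc adj z x y) else 0) = 0 := by
      apply Finset.sum_eq_zero
      intro y _
      by_cases hc : C x y
      · rw [if_pos hc, ind_neg (hcon y hc)]
      · rw [if_neg hc]
    omega
  have hMz : M z := Or.inl rfl
  -- an in-fake pair bounds the incoming defect from below
  have hIn_ge : ∀ x y, C x y → Fk adj y x → eps adj x ≤ In := by
    intro x y hc hf
    have h1 : (if C x y then eps adj x * ind (Fk adj y x) else 0) ≤
        ∑ y, if C x y then eps adj x * ind (Fk adj y x) else 0 := by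
      apply Finset.single_le_sum
        (f := fun y => if C x y then eps adj x * ind (Fk adj y x) else 0)
      · intro y _
        show 0 ≤ if C x y then eps adj x * ind (Fk adj y x) else 0
        split_ifs
        · have := heps_pos x
          have := ind_nonneg (Fk adj y x)
          positivity
        · exact le_rfl
      · exact Finset.mem_univ y
    have h2 : (∑ y, if C x y then eps adj x * ind (Fk adj y x) else 0) ≤ In := by
      apply Finset.single_le_sum
        (f := fun x => ∑ y, if C x y then eps adj x * ind (Fk adj y x) else 0)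
      · intro x _
        apply Finset.sum_nonneg
        intro y _
        split_ifs
        · have := heps_pos x
          have := ind_nonneg (Fk adj y x)
          positivity
        · exact le_rfl
      · exact Finset.mem_univ x
    rw [if_pos hc, ind_pos hf, mul_one] at h1
    linarith
  -- out-fake arcs go to small vertices
  have hout_small : ∀ x y, C x y → Fk adj x y → ¬ Big adj y := by
    intro x y hc hf hby
    have hxlo : lo < pos x := by
      have := hc.2.2.1
      have := hc.2.2.2
      omega
    obtain ⟨y', _, hd⟩ := hdefect x hc.1 hxlo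
    obtain ⟨m2, b2, nf⟩ := dfc_big hc.1 hd hf.2.1
    have := hs x y y' hf.1 m2 hby b2
    subst this
    exact nf hf
  have hOt_small : Ot ≤ (Fintype.card V : ℤ) ^ 2 := by
    rw [← hpairs]
    apply Finset.sum_le_sum
    intro x _
    apply Finset.sum_le_sum
    intro y _
    by_cases hc : C x y
    · rw [if_pos hc]
      by_cases hf : Fk adj x y
      · have hy := hout_small x y hc hf
        have : eps adj y = 1 := by
          unfold eps
          rw [if_neg hy]
        rw [this, ind_pos hf]
        norm_num
      · rw [ind_neg hf]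
        norm_num
    · rw [if_neg hc]
      norm_num
  -- the defect pair of `z`
  obtain ⟨u, hcu, hdu⟩ := hdefect z hMz hloz
  have hdu' : Ac adj z u ∧ Fk adj u z ∧ ¬ Fk adj z u := by
    rcases hdu with ⟨h1, h2, _⟩ | h
    · exact absurd h1 h2.2.1
    · exact h
  have hbig_in : ∀ x y, C x y → Fk adj y x → ¬ Big adj x := by
    intro x y hc hf hbx
    have h1 := hIn_ge x y hc hf
    have h2 : eps adj x = kK V := by
      unfold eps
      rw [if_pos hbx]
    rw [h2] at h1
    have h3 : kK V = (Fintype.card V : ℤ) ^ 2 + 1 := rfl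
    linarith
  have hznb : ¬ Big adj z := hbig_in z u hcu hdu'.2.1
  -- no moved vertex is big
  have hnobig : ∀ x, M x → lo < pos x → ¬ Big adj x := by
    intro x hx hxlo hbx
    obtain ⟨y', hc', hd⟩ := hdefect x hx hxlo
    rcases hd with ⟨h1, h2, h3⟩ | ⟨_, h2, _⟩
    · rcases hx with rfl | ⟨hb, hnp⟩
      · exact hznb hbx
      · obtain ⟨v, hv1, hv2, _⟩ := blocker hb hbx h1 h2 h3
        have hvu' : v = u := by
          have hm2 : Missing adj z u := by
            obtain ⟨p, hw⟩ := hdu'.1
            exact hw.1
          exact not_big_unique hznb hv1 hm2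
        rw [hvu'] at hv2
        obtain ⟨p, hw⟩ := hdu'.1
        have := wit_unique hw hb hv2
        subst this
        exact hnp ⟨u, hw⟩
    · exact hbig_in x y' hc' h2 hbx
  have hOt0 : Ot ≤ 0 := by
    apply Finset.sum_nonpos
    intro x _
    apply Finset.sum_nonpos
    intro y _
    by_cases hc : C x y
    · have hxlo : lo < pos x := by
        have := hc.2.2.1
        have := hc.2.2.2
        omega
      have hnf : ¬ Fk adj x y := fun e => hnobig x hc.1 hxlo e.2.1
      rw [if_pos hc, ind_neg hnf]
      norm_num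
    · rw [if_neg hc]
  have hIn1 : 1 ≤ In := le_trans (heps_pos z) (hIn_ge z u hcu hdu'.2.1)
  linarith

/-- Main internal statement. -/
theorem main_fintype [Fintype V] [Nonempty V] {adj : V → V → Prop} (ho : Oriented adj)
    (hs : MissingDoubleStarForest adj) :
    ∃ z, (univ.filter (adj z)).card ≤ (univ.filter (Two adj z)).card := by
  obtain ⟨pos, hp, hmax⟩ := exists_max_pos (wgt adj)
  obtain ⟨z, -, hz⟩ := Finset.exists_max_image (univ : Finset V) pos Finset.univ_nonempty
  have hlast : ∀ y, y ≠ z → pos y < pos z := by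
    intro y hy
    have h1 := hz y (Finset.mem_univ _)
    have h2 : pos y ≠ pos z := fun e => hy (hp e)
    omega
  refine ⟨z, ?_⟩
  have htot := total_le ho hs hp hmax hlast
  have hcount : ∑ y, kap adj z y = ((univ.filter (adj z)).card : ℤ)
      - ((univ.filter (Two adj z)).card : ℤ) - ((univ.filter (Pb adj z)).card : ℤ)
      + ((univ.filter (Ac adj z)).card : ℤ) := by
    unfold kap ind
    rw [Finset.sum_add_distrib, Finset.sum_sub_distrib, Finset.sum_sub_distrib]
    simp only [Finset.sum_boole]
  rw [hcount] at htot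
  have hpa : ((univ.filter (Pb adj z)).card : ℤ) ≤ ((univ.filter (Ac adj z)).card : ℤ) := by
    exact_mod_cast card_pb_le_card_ac z
  have : ((univ.filter (adj z)).card : ℤ) ≤ ((univ.filter (Two adj z)).card : ℤ) := by omega
  exact_mod_cast this

end Internal

end Vale.Agent.Lib.P038.DS

open Vale.Agent.Lib.P038.DS in
/-- Every nonempty finite oriented graph whose missing graph has all components stars or double
stars has a vertex `v` whose first out-neighbourhood is no larger than its second
out-neighbourhood. -/
theorem Vale.Agent.Results.P038.A_DoubleStar.result {V : Type*} [Finite V] [Nonempty V]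
    (adj : V → V → Prop) (ho : Oriented adj) (hs : MissingDoubleStarForest adj) :
    ∃ v : V, Set.ncard {u | adj v u} ≤
      Set.ncard {w | w ≠ v ∧ ¬ adj v w ∧ ∃ u, adj v u ∧ adj u w} := by
  classical
  cases nonempty_fintype V
  obtain ⟨z, hz⟩ := main_fintype ho hs
  refine ⟨z, ?_⟩
  have h1 : Set.ncard {u | adj z u} = (univ.filter (adj z)).card := by
    rw [← Set.ncard_coe_finset]
    congr 1
    ext x
    simp
  have h2 : Set.ncard {w | w ≠ z ∧ ¬ adj z w ∧ ∃ u, adj z u ∧ adj u w} =
      (univ.filter (Two adj z)).card := by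
    rw [← Set.ncard_coe_finset]
    congr 1
    ext x
    simp [Two]
  rw [h1, h2]
  exact hz
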