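import Mathlib

/-!
Seymour's second neighbourhood conjecture for oriented graphs whose missing graph
(the graph of non-adjacent pairs) is a star forest.
The proof uses a weighted median order of the graph completed by `convenient` fake arcs.
-/

open Finset

namespace Vale.Agent.Lib.P038

/-- `x` and `y` are distinct and joined by no arc: `xy` is a missing edge. -/
def Missing {V : Type*} (adj : V → V → Prop) (x y : V) : Prop :=
  x ≠ y ∧ ¬ adj x y ∧ ¬ adj y x

/-- Oriented graph: for all `x y` the arcs `x → y` and `y → x` do not both exist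
(for `x = y` this says there is no loop). -/
def Oriented {V : Type*} (adj : V → V → Prop) : Prop :=
  ∀ x y, adj x y → ¬ adj y x

/-- The missing graph is a star forest: every missing edge has an endpoint that lies on
no other missing edge. -/
def MissingStarForest {V : Type*} (adj : V → V → Prop) : Prop :=
  ∀ x y, Missing adj x y →
    (∀ w, Missing adj x w → w = y) ∨ (∀ w, Missing adj y w → w = x)

section Internal

open Classical

variable {V : Type*}

/-- Integer indicator. -/
noncomputable def ind (p : Prop) : ℤ := if p then 1 else 0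

lemma ind_pos {p : Prop} (h : p) : ind p = 1 := if_pos h
lemma ind_neg {p : Prop} (h : ¬ p) : ind p = 0 := if_neg h
lemma ind_nonneg (p : Prop) : 0 ≤ ind p := by unfold ind; split_ifs <;> norm_num
lemma ind_le_one (p : Prop) : ind p ≤ 1 := by unfold ind; split_ifs <;> norm_num

/-- `v` reaches `y` in at most two steps. -/
def Ball (adj : V → V → Prop) (v y : V) : Prop :=
  y = v ∨ adj v y ∨ ∃ w, adj v w ∧ adj w y

/-- `c` is a vertex on at least two missing edges. -/
def Big (adj : V → V → Prop) (c : V) : Prop :=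
  ∃ a b, a ≠ b ∧ Missing adj c a ∧ Missing adj c b

/-- The fake arc from a big centre `c` to its leaf `l` is convenient. -/
def Fk (adj : V → V → Prop) (c l : V) : Prop :=
  Missing adj c l ∧ Big adj c ∧ ∀ v, adj v c → Ball adj v l

/-- Bad vertices for `z`. -/
def Bad (adj : V → V → Prop) (z y : V) : Prop := y ≠ z ∧ ¬ Ball adj z y

/-- Second out-neighbours of `z`. -/
def Two (adj : V → V → Prop) (z y : V) : Prop :=
  y ≠ z ∧ ¬ adj z y ∧ ∃ u, adj z u ∧ adj u y

/-- The partner `u` of `z` blocks a fake arc out of the bad big centre `p`. -/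
def Wit (adj : V → V → Prop) (z u p : V) : Prop :=
  Missing adj z u ∧ Bad adj z p ∧ Big adj p ∧ adj u p ∧
    ∃ l, adj z l ∧ Missing adj p l ∧ ¬ Ball adj u l

/-- Problem centres. -/
def Pb (adj : V → V → Prop) (z p : V) : Prop := ∃ u, Wit adj z u p

/-- Active partners. -/
def Ac (adj : V → V → Prop) (z u : V) : Prop := ∃ p, Wit adj z u p

lemma Missing.symm' {adj : V → V → Prop} {x y : V} (h : Missing adj x y) : Missing adj y x :=
  ⟨h.1.symm, h.2.2, h.2.1⟩

lemma leaf_of_big {adj : V → V → Prop} (hs : MissingStarForest adj) {c l : V}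
    (hb : Big adj c) (hm : Missing adj c l) : ∀ w, Missing adj l w → w = c := by
  rcases hs c l hm with h | h
  · exfalso
    obtain ⟨a, b, hab, ha, hb'⟩ := hb
    exact hab ((h a ha).trans (h b hb').symm)
  · exact h

lemma not_big_of_fk {adj : V → V → Prop} (hs : MissingStarForest adj) {c l : V}
    (h : Fk adj c l) : ¬ Big adj l := by
  intro hb
  obtain ⟨a, b, hab, ha, hb'⟩ := hb
  have h1 := leaf_of_big hs h.2.1 h.1
  exact hab ((h1 a ha).trans (h1 b hb').symm)

lemma wit_two {adj : V → V → Prop} (ho : Oriented adj) (hs : MissingStarForest adj) {z u p : V}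
    (h : Wit adj z u p) : Two adj z u := by
  obtain ⟨hm, _, hbig, hup, l, hzl, hpl, hnb⟩ := h
  refine ⟨hm.1.symm, hm.2.1, l, hzl, ?_⟩
  by_contra hlu
  have hlu' : l ≠ u := fun e => hnb (Or.inl e)
  have hul : ¬ adj u l := fun e => hnb (Or.inr (Or.inl e))
  have := leaf_of_big hs hbig hpl u ⟨hlu', hlu, hul⟩
  rw [this] at hup
  exact ho p p hup hup

lemma wit_unique {adj : V → V → Prop} (hs : MissingStarForest adj) {z u p s : V}
    (h : Wit adj z u p) (hbs : Bad adj z s) (hus : adj u s) : s = p := by
  obtain ⟨_, _, hbig, _, l, hzl, hpl, hnb⟩ := h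
  have hsl : s ≠ l := fun e => hbs.2 (Or.inr (Or.inl (e ▸ hzl)))
  have hls : ¬ adj l s := fun e => hbs.2 (Or.inr (Or.inr ⟨l, hzl, e⟩))
  have hsl' : ¬ adj s l := fun e => hnb (Or.inr (Or.inr ⟨s, hus, e⟩))
  exact leaf_of_big hs hbig hpl s ⟨hsl.symm, hls, hsl'⟩

lemma pb_of_not_fk {adj : V → V → Prop} {z p l : V} (hp : Bad adj z p) (hbig : Big adj p)
    (hzl : adj z l) (hpl : Missing adj p l) (hnf : ¬ Fk adj p l) : Pb adj z p := by
  have : ∃ v, adj v p ∧ ¬ Ball adj v l := by
    by_contra hcon
    push Not at hcon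
    exact hnf ⟨hpl, hbig, hcon⟩
  obtain ⟨v, hvp, hvl⟩ := this
  refine ⟨v, ⟨?_, ?_, ?_⟩, hp, hbig, hvp, l, hzl, hpl, hvl⟩
  · rintro rfl
    exact hp.2 (Or.inr (Or.inl hvp))
  · intro e
    exact hp.2 (Or.inr (Or.inr ⟨v, e, hvp⟩))
  · intro e
    exact hvl (Or.inr (Or.inr ⟨z, e, hzl⟩))

/-- Weighted count of forward pairs for a position function. -/
noncomputable def Wt (w : V → V → ℤ) [Fintype V] (pos : V → ℤ) : ℤ :=
  ∑ x, ∑ y, if pos x < pos y then w x y else 0

/-- Move `b` to the slot just above level `lo` (all other vertices keep their order). -/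
noncomputable def mv (pos : V → ℤ) (b : V) (lo : ℤ) : V → ℤ :=
  fun x => if x = b then 2 * lo + 1 else 2 * pos x

lemma mv_inj {pos : V → ℤ} (hp : Function.Injective pos) (b : V) (lo : ℤ) :
    Function.Injective (mv pos b lo) := by
  intro x y h
  unfold mv at h
  by_cases hx : x = b <;> by_cases hy : y = b
  · rw [hx, hy]
  · simp only [hx, hy, if_true, if_false] at h; omega
  · simp only [hx, hy, if_true, if_false] at h; omega
  · simp only [hx, hy, if_false] at h
    exact hp (by omega)

/-- The window of vertices with positions strictly between `lo` and `hi`. -/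
noncomputable def win [Fintype V] (pos : V → ℤ) (lo hi : ℤ) : Finset V :=
  univ.filter (fun y => lo < pos y ∧ pos y < hi)

lemma mem_win [Fintype V] {pos : V → ℤ} {lo hi : ℤ} {y : V} :
    y ∈ win pos lo hi ↔ lo < pos y ∧ pos y < hi := by
  simp [win]

lemma Wt_mv [Fintype V] (w : V → V → ℤ) {pos : V → ℤ} (hp : Function.Injective pos) (b : V)
    {lo : ℤ} (hlo : lo < pos b) :
    Wt w (mv pos b lo) = Wt w pos + ∑ y ∈ win pos lo (pos b), (w b y - w y b) := by
  have key : ∀ x y, (if mv pos b lo x < mv pos b lo y then w x y else 0) =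
      (if pos x < pos y then w x y else 0)
        + (if x = b then (if lo < pos y ∧ pos y < pos b then w b y else 0) else 0)
        - (if y = b then (if lo < pos x ∧ pos x < pos b then w x b else 0) else 0) := by
    intro x y
    by_cases hx : x = b
    · subst hx
      by_cases hy : y = x
      · subst hy
        simp [mv]
      · have hne : pos x ≠ pos y := fun e => hy (hp e).symm
        simp only [mv, if_true, hy, if_false]
        split_ifs <;> omega
    · by_cases hy : y = b
      · subst hy
        have hne : pos x ≠ pos y := fun e => hx (hp e)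
        simp only [mv, hx, if_true, if_false]
        split_ifs <;> omega
      · simp only [mv, hx, hy, if_false]
        split_ifs <;> omega
  unfold Wt
  simp only [key, Finset.sum_sub_distrib, Finset.sum_add_distrib]
  have h1 : ∑ x : V, ∑ y : V, (if x = b then (if lo < pos y ∧ pos y < pos b then w b y else 0)
      else 0) = ∑ y : V, (if lo < pos y ∧ pos y < pos b then w b y else 0) := by
    rw [Finset.sum_eq_single b]
    · simp
    · intro x _ hx
      simp [hx]
    · simp
  have h2 : ∑ x : V, ∑ y : V, (if y = b then (if lo < pos x ∧ pos x < pos b then w x b else 0)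
      else 0) = ∑ x : V, (if lo < pos x ∧ pos x < pos b then w x b else 0) := by
    apply Finset.sum_congr rfl
    intro x _
    simp
  rw [h1, h2]
  unfold win
  rw [Finset.sum_filter, Finset.sum_filter]
  ring

lemma Wt_le [Fintype V] (w : V → V → ℤ) (hw : ∀ x y, 0 ≤ w x y) (pos : V → ℤ) :
    Wt w pos ≤ ∑ x, ∑ y, w x y :=
  Finset.sum_le_sum fun x _ => Finset.sum_le_sum fun y _ => by
    split_ifs
    · exact le_rfl
    · exact hw x y

lemma Wt_nonneg [Fintype V] (w : V → V → ℤ) (hw : ∀ x y, 0 ≤ w x y) (pos : V → ℤ) :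
    0 ≤ Wt w pos :=
  Finset.sum_nonneg fun x _ => Finset.sum_nonneg fun y _ => by
    split_ifs
    · exact hw x y
    · exact le_rfl

lemma exists_inj [Fintype V] : ∃ pos : V → ℤ, Function.Injective pos := by
  refine ⟨fun x => ((Fintype.equivFin V x : ℕ) : ℤ), ?_⟩
  intro x y h
  have h' : ((Fintype.equivFin V x : ℕ) : ℤ) = ((Fintype.equivFin V y : ℕ) : ℤ) := h
  have : ((Fintype.equivFin V x : ℕ)) = (Fintype.equivFin V y : ℕ) := by exact_mod_cast h'
  exact (Fintype.equivFin V).injective (Fin.ext this)

lemma exists_max_pos [Fintype V] (w : V → V → ℤ) (hw : ∀ x y, 0 ≤ w x y) :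
    ∃ pos : V → ℤ, Function.Injective pos ∧ ∀ pos', Function.Injective pos' →
      Wt w pos' ≤ Wt w pos := by
  obtain ⟨ub, ⟨pos, hp, rfl⟩, hub⟩ := Int.exists_greatest_of_bdd
    (P := fun t => ∃ pos : V → ℤ, Function.Injective pos ∧ Wt w pos = t)
    ⟨∑ x, ∑ y, w x y, by
      rintro t ⟨pos, _, rfl⟩
      exact Wt_le w hw pos⟩
    (by
      obtain ⟨pos, hp⟩ := exists_inj (V := V)
      exact ⟨_, pos, hp, rfl⟩)
  exact ⟨pos, hp, fun pos' hp' => hub _ ⟨pos', hp', rfl⟩⟩

/-- Real arcs have weight `|V| + 1`, convenient fake arcs weight `|V|`. -/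
noncomputable def wgt [Fintype V] (adj : V → V → Prop) (x y : V) : ℤ :=
  ((Fintype.card V : ℤ) + 1) * ind (adj x y) + (Fintype.card V : ℤ) * ind (Fk adj x y)

lemma wgt_nonneg [Fintype V] (adj : V → V → Prop) (x y : V) : 0 ≤ wgt adj x y := by
  unfold wgt
  have := ind_nonneg (adj x y)
  have := ind_nonneg (Fk adj x y)
  positivity

/-- Auxiliary weight: non-bad before bad. -/
noncomputable def wgt' (adj : V → V → Prop) (z x y : V) : ℤ :=
  ind (¬ Bad adj z x ∧ Bad adj z y)

lemma wgt'_nonneg (adj : V → V → Prop) (z x y : V) : 0 ≤ wgt' adj z x y := ind_nonneg _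

/-- Signed real arc count. -/
noncomputable def dl (adj : V → V → Prop) (b y : V) : ℤ := ind (adj b y) - ind (adj y b)

lemma sum_fk_in_le [Fintype V] {adj : V → V → Prop} (hs : MissingStarForest adj)
    (J : Finset V) (b : V) : ∑ y ∈ J, ind (Fk adj y b) ≤ 1 := by
  have : ∑ y ∈ J, ind (Fk adj y b) = ((J.filter (fun y => Fk adj y b)).card : ℤ) := by
    unfold ind
    rw [Finset.sum_boole]
  rw [this]
  have hc : (J.filter (fun y => Fk adj y b)).card ≤ 1 := by
    rw [Finset.card_le_one]
    intro y hy y' hy'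
    have h1 := (Finset.mem_filter.mp hy).2
    have h2 := (Finset.mem_filter.mp hy').2
    exact (leaf_of_big hs h1.2.1 h1.1 y' h2.1.symm').symm
  exact_mod_cast hc

lemma sum_fk_out_le [Fintype V] (adj : V → V → Prop) (J : Finset V) (b : V) :
    ∑ y ∈ J, ind (Fk adj b y) ≤ (Fintype.card V : ℤ) := by
  calc ∑ y ∈ J, ind (Fk adj b y) ≤ ∑ _y ∈ J, (1 : ℤ) :=
        Finset.sum_le_sum fun y _ => ind_le_one _
    _ = (J.card : ℤ) := by simp
    _ ≤ (Fintype.card V : ℤ) := by exact_mod_cast Finset.card_le_univ J

lemma sum_wgt [Fintype V] (adj : V → V → Prop) (J : Finset V) (b : V) :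
    ∑ y ∈ J, (wgt adj b y - wgt adj y b) =
      ((Fintype.card V : ℤ) + 1) * ∑ y ∈ J, dl adj b y
        + (Fintype.card V : ℤ) * (∑ y ∈ J, ind (Fk adj b y) - ∑ y ∈ J, ind (Fk adj y b)) := by
  rw [← Finset.sum_sub_distrib, Finset.mul_sum, Finset.mul_sum, ← Finset.sum_add_distrib]
  apply Finset.sum_congr rfl
  intro y _
  unfold wgt dl
  ring

/-- Moving a vertex never gains real arcs. -/
lemma sum_dl_le [Fintype V] {adj : V → V → Prop} (hs : MissingStarForest adj)
    {pos : V → ℤ} (hp : Function.Injective pos)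
    (hmax : ∀ pos', Function.Injective pos' → Wt (wgt adj) pos' ≤ Wt (wgt adj) pos)
    (b : V) {lo : ℤ} (hlo : lo < pos b) :
    ∑ y ∈ win pos lo (pos b), dl adj b y ≤ 0 := by
  have h1 := hmax _ (mv_inj hp b lo)
  rw [Wt_mv _ hp b hlo, sum_wgt] at h1
  have h2 := sum_fk_in_le hs (win pos lo (pos b)) b
  have h3 : 0 ≤ ∑ y ∈ win pos lo (pos b), ind (Fk adj b y) :=
    Finset.sum_nonneg fun y _ => ind_nonneg _
  set S := ∑ y ∈ win pos lo (pos b), dl adj b y
  set P := ∑ y ∈ win pos lo (pos b), ind (Fk adj b y)
  set Q := ∑ y ∈ win pos lo (pos b), ind (Fk adj y b)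
  by_contra hS
  have hS' : 1 ≤ S := by omega
  have hn : (0 : ℤ) ≤ (Fintype.card V : ℤ) := by positivity
  nlinarith [mul_nonneg hn h3, mul_nonneg hn (sub_nonneg.mpr h2),
    mul_le_mul_of_nonneg_left hS' (by positivity : (0 : ℤ) ≤ (Fintype.card V : ℤ) + 1)]

/-- For a big vertex, fake out-arcs count as well. -/
lemma sum_dl_add_le [Fintype V] {adj : V → V → Prop} (hs : MissingStarForest adj)
    {pos : V → ℤ} (hp : Function.Injective pos)
    (hmax : ∀ pos', Function.Injective pos' → Wt (wgt adj) pos' ≤ Wt (wgt adj) pos)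
    (b : V) (hb : Big adj b) {lo : ℤ} (hlo : lo < pos b) :
    ∑ y ∈ win pos lo (pos b), (dl adj b y + ind (Fk adj b y)) ≤ 0 := by
  have h1 := hmax _ (mv_inj hp b lo)
  rw [Wt_mv _ hp b hlo, sum_wgt] at h1
  have h2 : ∑ y ∈ win pos lo (pos b), ind (Fk adj y b) = 0 :=
    Finset.sum_eq_zero fun y _ => ind_neg fun h => not_big_of_fk hs h hb
  have h3 := sum_fk_out_le adj (win pos lo (pos b)) b
  rw [h2] at h1
  rw [Finset.sum_add_distrib]
  set S := ∑ y ∈ win pos lo (pos b), dl adj b y
  set P := ∑ y ∈ win pos lo (pos b), ind (Fk adj b y)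
  by_contra hS
  have hS' : 1 ≤ S + P := by omega
  have hn : (0 : ℤ) ≤ (Fintype.card V : ℤ) := by positivity
  nlinarith [mul_le_mul_of_nonneg_left hS' (by positivity : (0 : ℤ) ≤ (Fintype.card V : ℤ) + 1)]

/-- The summand for the final count. -/
noncomputable def kap (adj : V → V → Prop) (z y : V) : ℤ :=
  ind (adj z y) - ind (Two adj z y) - ind (Pb adj z y) + ind (Ac adj z y)

lemma ball_of_two {adj : V → V → Prop} {z y : V} (h : Two adj z y) : Ball adj z y :=
  Or.inr (Or.inr h.2.2)

lemma two_or_bad {adj : V → V → Prop} {z y : V} (hy : y ≠ z) (h : ¬ adj z y) :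
    Two adj z y ∨ Bad adj z y := by
  by_cases hw : ∃ u, adj z u ∧ adj u y
  · exact Or.inl ⟨hy, h, hw⟩
  · refine Or.inr ⟨hy, ?_⟩
    rintro (e | e | e)
    · exact hy e
    · exact h e
    · exact hw e

/-- Pointwise comparison for vertices that are not out-neighbours of `z`. -/
lemma kap_le_dl {adj : V → V → Prop} (ho : Oriented adj) (hs : MissingStarForest adj)
    {z b y : V} (hb : Bad adj z b) (hnp : ¬ Pb adj z b) (hy : y ≠ z) (hzy : ¬ adj z y)
    (hJ : Bad adj z y → Pb adj z y) : kap adj z y ≤ dl adj b y := by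
  unfold kap dl
  rw [ind_neg hzy]
  by_cases hac : Ac adj z y
  · obtain ⟨p, hw⟩ := hac
    have h2 := wit_two ho hs hw
    have hnb : ¬ Bad adj z y := fun e => e.2 (ball_of_two h2)
    have hnq : ¬ Pb adj z y := by
      rintro ⟨u, hu⟩
      exact hnb hu.2.1
    have hyb : ¬ adj y b := by
      intro e
      have := wit_unique hs hw hb e
      subst this
      exact hnp ⟨y, hw⟩
    have hac' : Ac adj z y := ⟨p, hw⟩
    rw [ind_pos h2, ind_neg hnq, ind_pos hac', ind_neg hyb]
    have := ind_nonneg (adj b y)
    omega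
  · rw [ind_neg hac]
    have h1 := ind_nonneg (adj b y)
    have h2 := ind_le_one (adj y b)
    have h3 := ind_nonneg (Pb adj z y)
    have h4 := ind_nonneg (Two adj z y)
    rcases two_or_bad hy hzy with h | h
    · rw [ind_pos h] at *
      omega
    · rw [ind_pos (hJ h)] at *
      omega

/-- Value of the summand at an out-neighbour of `z`. -/
lemma kap_of_adj {adj : V → V → Prop} {z y : V} (hzy : adj z y)
    (ho : Oriented adj) (hs : MissingStarForest adj) : kap adj z y = 1 := by
  have hn2 : ¬ Two adj z y := fun e => e.2.1 hzy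
  have hnq : ¬ Pb adj z y := by
    rintro ⟨u, hu⟩
    exact hu.2.1.2 (Or.inr (Or.inl hzy))
  have hna : ¬ Ac adj z y := by
    rintro ⟨p, hp⟩
    exact hn2 (wit_two ho hs hp)
  unfold kap
  rw [ind_pos hzy, ind_neg hn2, ind_neg hnq, ind_neg hna]
  norm_num

lemma kap_of_bad_not_pb {adj : V → V → Prop} (ho : Oriented adj) (hs : MissingStarForest adj)
    {z b : V} (hb : Bad adj z b) (hnp : ¬ Pb adj z b) : kap adj z b = 0 := by
  have h1 : ¬ adj z b := fun e => hb.2 (Or.inr (Or.inl e))
  have h2 : ¬ Two adj z b := fun e => hb.2 (ball_of_two e)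
  have h3 : ¬ Ac adj z b := by
    rintro ⟨p, hp⟩
    exact h2 (wit_two ho hs hp)
  unfold kap
  rw [ind_neg h1, ind_neg h2, ind_neg hnp, ind_neg h3]
  norm_num

lemma kap_self {adj : V → V → Prop} (ho : Oriented adj) (z : V) : kap adj z z = 0 := by
  have h1 : ¬ adj z z := fun e => ho z z e e
  have h2 : ¬ Two adj z z := fun e => e.1 rfl
  have h3 : ¬ Pb adj z z := by
    rintro ⟨u, hu⟩
    exact hu.2.1.1 rfl
  have h4 : ¬ Ac adj z z := by
    rintro ⟨p, hp⟩
    exact hp.1.1 rfl
  unfold kap
  rw [ind_neg h1, ind_neg h2, ind_neg h3, ind_neg h4]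
  norm_num

/-- The block inequality ending at a non-problem bad vertex. -/
lemma block_le [Fintype V] {adj : V → V → Prop} (ho : Oriented adj) (hs : MissingStarForest adj)
    {pos : V → ℤ} {z : V} (hp : Function.Injective pos)
    (hmax : ∀ pos', Function.Injective pos' → Wt (wgt adj) pos' ≤ Wt (wgt adj) pos)
    (hlast : ∀ y, y ≠ z → pos y < pos z)
    (hmin : ∀ pos', Function.Injective pos' → Wt (wgt adj) pos' = Wt (wgt adj) pos →
      (∀ y, y ≠ z → pos' y < pos' z) → Wt (wgt' adj z) pos ≤ Wt (wgt' adj z) pos')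
    {b : V} (hb : Bad adj z b) (hnp : ¬ Pb adj z b) {lo : ℤ} (hlo : lo < pos b)
    (hJ : ∀ y ∈ win pos lo (pos b), Bad adj z y → Pb adj z y) :
    ∑ y ∈ win pos lo (pos b), kap adj z y ≤ 0 := by
  have hbz : pos b < pos z := hlast b hb.1
  have hyz : ∀ y ∈ win pos lo (pos b), y ≠ z := by
    intro y hy e
    have := (mem_win.mp hy).2
    subst e
    omega
  have hyb : ∀ y ∈ win pos lo (pos b), y ≠ b := by
    intro y hy e
    have := (mem_win.mp hy).2
    subst e
    omega
  have hA : ∀ y, adj z y → ¬ adj y b := fun y hzy e => hb.2 (Or.inr (Or.inr ⟨y, hzy, e⟩))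
  by_cases hbig : Big adj b
  · -- big vertex: fake arcs cover its non-neighbours among the out-neighbours of `z`
    refine le_trans (Finset.sum_le_sum ?_) (sum_dl_add_le hs hp hmax b hbig hlo)
    intro y hy
    by_cases hzy : adj z y
    · rw [kap_of_adj hzy ho hs]
      unfold dl
      rw [ind_neg (hA y hzy)]
      by_cases hby : adj b y
      · rw [ind_pos hby]
        have := ind_nonneg (Fk adj b y)
        omega
      · have hm : Missing adj b y := ⟨(hyb y hy).symm, hby, hA y hzy⟩
        have hf : Fk adj b y := by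
          by_contra hnf
          exact hnp (pb_of_not_fk hb hbig hzy hm hnf)
        rw [ind_neg hby, ind_pos hf]
        norm_num
    · have := kap_le_dl ho hs hb hnp (hyz y hy) hzy (hJ y hy)
      have := ind_nonneg (Fk adj b y)
      omega
  · by_cases hex : ∃ y0 ∈ win pos lo (pos b), adj z y0 ∧ Missing adj b y0
    · obtain ⟨y0, hy0, hzy0, hm0⟩ := hex
      have huniq : ∀ y, Missing adj b y → y = y0 := by
        intro y hy
        by_contra hne
        exact hbig ⟨y, y0, hne, hy, hm0⟩
      -- pointwise bound with an extra unit at y0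
      have hpt : ∀ y ∈ win pos lo (pos b), kap adj z y ≤ dl adj b y + (if y = y0 then 1 else 0) := by
        intro y hy
        by_cases hzy : adj z y
        · rw [kap_of_adj hzy ho hs]
          unfold dl
          rw [ind_neg (hA y hzy)]
          by_cases hby : adj b y
          · rw [ind_pos hby]
            split_ifs <;> omega
          · have hm : Missing adj b y := ⟨(hyb y hy).symm, hby, hA y hzy⟩
            rw [ind_neg hby, if_pos (huniq y hm)]
            norm_num
        · have := kap_le_dl ho hs hb hnp (hyz y hy) hzy (hJ y hy)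
          split_ifs <;> omega
      have hsum : ∑ y ∈ win pos lo (pos b), kap adj z y ≤
          ∑ y ∈ win pos lo (pos b), dl adj b y + 1 := by
        refine le_trans (Finset.sum_le_sum hpt) ?_
        rw [Finset.sum_add_distrib, Finset.sum_ite_eq' (win pos lo (pos b)) y0, if_pos hy0]
      -- strictness
      have hle := sum_dl_le hs hp hmax b hlo
      have hstrict : ∑ y ∈ win pos lo (pos b), dl adj b y ≠ 0 := by
        intro h0
        have hf1 : ∑ y ∈ win pos lo (pos b), ind (Fk adj b y) = 0 :=
          Finset.sum_eq_zero fun y _ => ind_neg fun h => hbig h.2.1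
        have hf2 : ∑ y ∈ win pos lo (pos b), ind (Fk adj y b) = 0 := by
          refine Finset.sum_eq_zero fun y _ => ind_neg fun h => ?_
          have e := huniq y h.1.symm'
          subst e
          exact hb.2 (h.2.2 z hzy0)
        have hW : Wt (wgt adj) (mv pos b lo) = Wt (wgt adj) pos := by
          rw [Wt_mv _ hp b hlo, sum_wgt, h0, hf1, hf2]
          ring
        have hlast' : ∀ y, y ≠ z → mv pos b lo y < mv pos b lo z := by
          intro y hyne
          have hzb : z ≠ b := hb.1.symm
          unfold mv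
          rw [if_neg hzb]
          by_cases hyb' : y = b
          · rw [if_pos hyb']
            omega
          · rw [if_neg hyb']
            have := hlast y hyne
            omega
        have hm := hmin _ (mv_inj hp b lo) hW hlast'
        rw [Wt_mv _ hp b hlo] at hm
        have hneg : ∑ y ∈ win pos lo (pos b), (wgt' adj z b y - wgt' adj z y b) < 0 := by
          have hpt2 : ∀ y ∈ win pos lo (pos b), wgt' adj z b y - wgt' adj z y b =
              - ind (¬ Bad adj z y) := by
            intro y _
            unfold wgt'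
            rw [ind_neg (fun h : ¬ Bad adj z b ∧ Bad adj z y => h.1 hb)]
            by_cases hby : Bad adj z y
            · rw [ind_neg (fun h : ¬ Bad adj z y ∧ Bad adj z b => h.1 hby), ind_neg (not_not.mpr hby)]
              norm_num
            · rw [ind_pos (⟨hby, hb⟩ : ¬ Bad adj z y ∧ Bad adj z b), ind_pos hby]
              norm_num
          rw [Finset.sum_congr rfl hpt2, Finset.sum_neg_distrib]
          have hnb0 : ¬ Bad adj z y0 := fun e => e.2 (Or.inr (Or.inl hzy0))
          have h1 : ind (¬ Bad adj z y0) ≤ ∑ y ∈ win pos lo (pos b), ind (¬ Bad adj z y) :=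
            Finset.single_le_sum (f := fun y => ind (¬ Bad adj z y))
              (fun y _ => ind_nonneg _) hy0
          rw [ind_pos hnb0] at h1
          omega
        omega
      omega
    · -- no non-neighbour of `b` among the out-neighbours of `z` in the window
      refine le_trans (Finset.sum_le_sum ?_) (sum_dl_le hs hp hmax b hlo)
      intro y hy
      by_cases hzy : adj z y
      · rw [kap_of_adj hzy ho hs]
        unfold dl
        rw [ind_neg (hA y hzy)]
        by_cases hby : adj b y
        · rw [ind_pos hby]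
          norm_num
        · exact absurd ⟨y, hy, hzy, (hyb y hy).symm, hby, hA y hzy⟩ hex
      · exact kap_le_dl ho hs hb hnp (hyz y hy) hzy (hJ y hy)

/-- The block inequality for the last block, ending at `z` itself. -/
lemma last_le [Fintype V] {adj : V → V → Prop} (ho : Oriented adj) (hs : MissingStarForest adj)
    {pos : V → ℤ} {z : V} (hp : Function.Injective pos)
    (hmax : ∀ pos', Function.Injective pos' → Wt (wgt adj) pos' ≤ Wt (wgt adj) pos)
    {lo : ℤ} (hlo : lo < pos z)
    (hJ : ∀ y ∈ win pos lo (pos z), Bad adj z y → Pb adj z y) :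
    ∑ y ∈ win pos lo (pos z), kap adj z y ≤ 0 := by
  refine le_trans (Finset.sum_le_sum ?_) (sum_dl_le hs hp hmax z hlo)
  intro y hy
  have hyz : y ≠ z := by
    intro e
    have := (mem_win.mp hy).2
    subst e
    omega
  by_cases hzy : adj z y
  · rw [kap_of_adj hzy ho hs]
    unfold dl
    rw [ind_pos hzy, ind_neg (ho z y hzy)]
    norm_num
  · unfold dl kap
    rw [ind_neg hzy]
    by_cases hac : Ac adj z y
    · obtain ⟨p, hw⟩ := hac
      have h2 := wit_two ho hs hw
      have hnq : ¬ Pb adj z y := by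
        rintro ⟨u, hu⟩
        exact hu.2.1.2 (ball_of_two h2)
      have hac' : Ac adj z y := ⟨p, hw⟩
      rw [ind_pos h2, ind_neg hnq, ind_pos hac', ind_neg hw.1.2.2]
      norm_num
    · rw [ind_neg hac]
      have h2 := ind_le_one (adj y z)
      have h3 := ind_nonneg (Pb adj z y)
      have h4 := ind_nonneg (Two adj z y)
      rcases two_or_bad hyz hzy with h | h
      · rw [ind_pos h] at *
        omega
      · rw [ind_pos (hJ y hy h)] at *
        omega

lemma win_split [Fintype V] {pos : V → ℤ} (hp : Function.Injective pos) (f : V → ℤ) {lo hi : ℤ}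
    {b : V} (h1 : lo < pos b) (h2 : pos b < hi) :
    ∑ y ∈ win pos lo hi, f y =
      ∑ y ∈ win pos lo (pos b), f y + f b + ∑ y ∈ win pos (pos b) hi, f y := by
  have hb : f b = ∑ y : V, if y = b then f y else 0 := by simp
  rw [hb]
  unfold win
  rw [Finset.sum_filter, Finset.sum_filter, Finset.sum_filter, ← Finset.sum_add_distrib,
    ← Finset.sum_add_distrib]
  apply Finset.sum_congr rfl
  intro y _
  by_cases hy : y = b
  · subst hy
    simp [h1, h2]
  · have hne : pos y ≠ pos b := fun e => hy (hp e)
    rw [if_neg hy]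
    split_ifs <;> omega

/-- Summing the block inequalities. -/
lemma total_le [Fintype V] {adj : V → V → Prop} (ho : Oriented adj) (hs : MissingStarForest adj)
    {pos : V → ℤ} {z : V} (hp : Function.Injective pos)
    (hmax : ∀ pos', Function.Injective pos' → Wt (wgt adj) pos' ≤ Wt (wgt adj) pos)
    (hlast : ∀ y, y ≠ z → pos y < pos z)
    (hmin : ∀ pos', Function.Injective pos' → Wt (wgt adj) pos' = Wt (wgt adj) pos →
      (∀ y, y ≠ z → pos' y < pos' z) → Wt (wgt' adj z) pos ≤ Wt (wgt' adj z) pos') :
    ∀ (n : ℕ) (lo : ℤ), (pos z - lo).toNat ≤ n →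
      ∑ y ∈ win pos lo (pos z), kap adj z y ≤ 0 := by
  intro n
  induction n with
  | zero =>
    intro lo hn
    have : win pos lo (pos z) = ∅ := by
      apply Finset.eq_empty_of_forall_notMem
      intro y hy
      have := mem_win.mp hy
      omega
    rw [this]
    simp
  | succ n ih =>
    intro lo hn
    by_cases hlo : lo < pos z
    · by_cases hex : ∃ y ∈ win pos lo (pos z), Bad adj z y ∧ ¬ Pb adj z y
      · -- take the first non-problem bad vertex
        have hne : ((win pos lo (pos z)).filter (fun y => Bad adj z y ∧ ¬ Pb adj z y)).Nonempty := by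
          obtain ⟨y, hy, h⟩ := hex
          exact ⟨y, Finset.mem_filter.mpr ⟨hy, h⟩⟩
        obtain ⟨b, hbm, hbmin⟩ := Finset.exists_min_image _ pos hne
        obtain ⟨hbw, hbad, hnp⟩ := Finset.mem_filter.mp hbm
        have hb1 := mem_win.mp hbw
        have hblock := block_le ho hs hp hmax hlast hmin hbad hnp hb1.1 (by
          intro y hy hby
          by_contra hnq
          have hy' := mem_win.mp hy
          have hmem : y ∈ (win pos lo (pos z)).filter (fun y => Bad adj z y ∧ ¬ Pb adj z y) :=
            Finset.mem_filter.mpr ⟨mem_win.mpr ⟨hy'.1, by omega⟩, hby, hnq⟩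
          have := hbmin y hmem
          omega)
        have hrest := ih (pos b) (by omega)
        rw [win_split hp _ hb1.1 hb1.2, kap_of_bad_not_pb ho hs hbad hnp]
        omega
      · push Not at hex
        exact last_le ho hs hp hmax hlo (fun y hy h => hex y hy h)
    · have : win pos lo (pos z) = ∅ := by
        apply Finset.eq_empty_of_forall_notMem
        intro y hy
        have := mem_win.mp hy
        omega
      rw [this]
      simp

lemma card_pb_le_card_ac [Fintype V] {adj : V → V → Prop} (hs : MissingStarForest adj) (z : V) :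
    (univ.filter (Pb adj z)).card ≤ (univ.filter (Ac adj z)).card := by
  choose! u hu using (fun p (h : Pb adj z p) => h)
  apply Finset.card_le_card_of_injOn u
  · intro p hp
    have hp' := (Finset.mem_filter.mp hp).2
    exact Finset.mem_filter.mpr ⟨Finset.mem_univ _, p, hu p hp'⟩
  · intro p hp q hq e
    have hp' := (Finset.mem_filter.mp (Finset.mem_coe.mp hp)).2
    have hq' := (Finset.mem_filter.mp (Finset.mem_coe.mp hq)).2
    have h1 := hu p hp'
    have h2 := hu q hq'
    rw [e] at h1
    exact wit_unique hs h2 h1.2.1 h1.2.2.2.1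

/-- Main internal statement. -/
theorem main_fintype [Fintype V] [Nonempty V] {adj : V → V → Prop} (ho : Oriented adj)
    (hs : MissingStarForest adj) :
    ∃ z, (univ.filter (adj z)).card ≤ (univ.filter (Two adj z)).card := by
  obtain ⟨pos0, hp0, hmax0⟩ := exists_max_pos (wgt adj) (wgt_nonneg adj)
  obtain ⟨z, -, hz⟩ := Finset.exists_max_image (univ : Finset V) pos0 Finset.univ_nonempty
  have hlast0 : ∀ y, y ≠ z → pos0 y < pos0 z := by
    intro y hy
    have h1 := hz y (Finset.mem_univ _)
    have h2 : pos0 y ≠ pos0 z := fun e => hy (hp0 e)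
    omega
  obtain ⟨lb, ⟨pos, hp, hWeq, hlast, rfl⟩, hlb⟩ := Int.exists_least_of_bdd
    (P := fun t => ∃ pos : V → ℤ, Function.Injective pos ∧ Wt (wgt adj) pos = Wt (wgt adj) pos0 ∧
      (∀ y, y ≠ z → pos y < pos z) ∧ Wt (wgt' adj z) pos = t)
    ⟨0, by
      rintro t ⟨pos, _, _, _, rfl⟩
      exact Wt_nonneg _ (wgt'_nonneg adj z) pos⟩
    ⟨_, pos0, hp0, rfl, hlast0, rfl⟩
  have hmax : ∀ pos', Function.Injective pos' → Wt (wgt adj) pos' ≤ Wt (wgt adj) pos := by
    intro pos' hp'
    rw [hWeq]
    exact hmax0 pos' hp'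
  have hmin : ∀ pos', Function.Injective pos' → Wt (wgt adj) pos' = Wt (wgt adj) pos →
      (∀ y, y ≠ z → pos' y < pos' z) → Wt (wgt' adj z) pos ≤ Wt (wgt' adj z) pos' := by
    intro pos' hp' hW hl
    exact hlb _ ⟨pos', hp', hW.trans hWeq, hl, rfl⟩
  refine ⟨z, ?_⟩
  -- a level below all positions
  obtain ⟨m, -, hm⟩ := Finset.exists_min_image (univ : Finset V) pos Finset.univ_nonempty
  have htot := total_le ho hs hp hmax hlast hmin _ (pos m - 1) le_rfl
  have hsum : ∑ y ∈ win pos (pos m - 1) (pos z), kap adj z y = ∑ y, kap adj z y := by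
    apply Finset.sum_subset (Finset.subset_univ _)
    intro y _ hy
    have hyz : y = z := by
      by_contra hne
      apply hy
      have := hm y (Finset.mem_univ _)
      exact mem_win.mpr ⟨by omega, hlast y hne⟩
    rw [hyz]
    exact kap_self ho z
  rw [hsum] at htot
  have hcount : ∑ y, kap adj z y = ((univ.filter (adj z)).card : ℤ)
      - ((univ.filter (Two adj z)).card : ℤ) - ((univ.filter (Pb adj z)).card : ℤ)
      + ((univ.filter (Ac adj z)).card : ℤ) := by
    unfold kap ind
    rw [Finset.sum_add_distrib, Finset.sum_sub_distrib, Finset.sum_sub_distrib]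
    simp only [Finset.sum_boole]
  rw [hcount] at htot
  have hpa : ((univ.filter (Pb adj z)).card : ℤ) ≤ ((univ.filter (Ac adj z)).card : ℤ) := by
    exact_mod_cast card_pb_le_card_ac hs z
  have : ((univ.filter (adj z)).card : ℤ) ≤ ((univ.filter (Two adj z)).card : ℤ) := by omega
  exact_mod_cast this

end Internal

end Vale.Agent.Lib.P038

open Vale.Agent.Lib.P038 in
/-- Every nonempty finite oriented graph whose missing graph is a star forest has a vertex `v`
whose first out-neighbourhood is no larger than its second out-neighbourhood. -/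
theorem Vale.Agent.Results.P038.A_StarForest.result {V : Type*} [Finite V] [Nonempty V]
    (adj : V → V → Prop) (ho : Oriented adj) (hs : MissingStarForest adj) :
    ∃ v : V, Set.ncard {u | adj v u} ≤
      Set.ncard {w | w ≠ v ∧ ¬ adj v w ∧ ∃ u, adj v u ∧ adj u w} := by
  classical
  cases nonempty_fintype V
  obtain ⟨z, hz⟩ := main_fintype ho hs
  refine ⟨z, ?_⟩
  have h1 : Set.ncard {u | adj z u} = (univ.filter (adj z)).card := by
    rw [← Set.ncard_coe_finset]
    congr 1
    ext x
    simp
  have h2 : Set.ncard {w | w ≠ z ∧ ¬ adj z w ∧ ∃ u, adj z u ∧ adj u w} =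
      (univ.filter (Two adj z)).card := by
    rw [← Set.ncard_coe_finset]
    congr 1
    ext x
    simp [Two]
  rw [h1, h2]
  exact hz
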