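import Mathlib

namespace Vale.Agent.Results.P038.A_triangle_class

open Finset BigOperators

variable {V : Type*} [Fintype V] [DecidableEq V]

/-- Oriented graph: no loops and no pair of opposite arcs. -/
structure IsOriented (r : V → V → Prop) : Prop where
  irrefl : ∀ v, ¬ r v v
  asymm : ∀ u v, r u v → ¬ r v u

/-- First out-neighbourhood. -/
noncomputable def N1 (r : V → V → Prop) (v : V) : Finset V := by
  classical exact univ.filter (fun u => r v u)

/-- Second out-neighbourhood: directed distance exactly two. -/
noncomputable def N2 (r : V → V → Prop) (v : V) : Finset V := by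
  classical exact univ.filter (fun w => w ≠ v ∧ ¬ r v w ∧ ∃ u, r v u ∧ r u w)

lemma mem_N1 (r : V → V → Prop) (v u : V) : u ∈ N1 r v ↔ r v u := by
  classical simp [N1]

lemma mem_N2 (r : V → V → Prop) (v w : V) :
    w ∈ N2 r v ↔ w ≠ v ∧ ¬ r v w ∧ ∃ u, r v u ∧ r u w := by
  classical simp [N2]

/-- Skew-symmetric game: a probability vector `y` with `S y ≥ 0`. -/
lemma skew_solution [Nonempty V] (S : V → V → ℝ) (hS : ∀ a b, S a b = - S b a) :
    ∃ y : V → ℝ, (∀ v, 0 ≤ y v) ∧ ∑ v, y v = 1 ∧ ∀ z, 0 ≤ ∑ v, S z v * y v := by
  classical
  let L : (V → ℝ) →ₗ[ℝ] (V → ℝ) :=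
    { toFun := fun y z => ∑ v, S z v * y v
      map_add' := by
        intro a b; funext z; simp [mul_add, Finset.sum_add_distrib]
      map_smul' := by
        intro c a; funext z; simp [Finset.mul_sum, mul_left_comm] }
  let K : Set (V → ℝ) := L '' stdSimplex ℝ V
  let C : Set (V → ℝ) := {u | ∀ z, 0 ≤ u z}
  have hKconv : Convex ℝ K := (convex_stdSimplex ℝ V).linear_image L
  have hKcomp : IsCompact K :=
    (isCompact_stdSimplex ℝ V).image L.continuous_of_finiteDimensional
  have hCconv : Convex ℝ C := by
    intro a ha b hb s t hs ht _ z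
    have := ha z; have := hb z
    simp only [Pi.add_apply, Pi.smul_apply, smul_eq_mul]
    positivity
  have hCclosed : IsClosed C := by
    have : C = ⋂ z, {u : V → ℝ | 0 ≤ u z} := by ext u; simp [C]
    rw [this]
    exact isClosed_iInter (fun z => isClosed_le continuous_const (continuous_apply z))
  by_cases hdisj : Disjoint K C
  · exfalso
    obtain ⟨f, u, v, hfu, huv, hfv⟩ :=
      geometric_hahn_banach_compact_closed hKconv hKcomp hCconv hCclosed hdisj
    have h0C : (0 : V → ℝ) ∈ C := fun _ => le_refl _
    have hv0 : v < 0 := by simpa using hfv 0 h0C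
    -- coefficients of f
    let e : V → (V → ℝ) := fun z => Pi.single z 1
    let φ : V → ℝ := fun z => f (e z)
    have hφ : ∀ z, 0 ≤ φ z := by
      intro z
      by_contra hneg
      push Not at hneg
      -- take t large
      have hmem : ((v / φ z) • e z) ∈ C := by
        intro w
        have hq : 0 ≤ v / φ z := div_nonneg_of_nonpos hv0.le hneg.le
        by_cases hw : w = z
        · subst hw; simp [e, hq]
        · simp [e, hw]
      have := hfv _ hmem
      rw [map_smul, smul_eq_mul] at this
      have h2 : v / φ z * f (e z) = v := by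
        change v / φ z * φ z = v
        exact div_mul_cancel₀ v hneg.ne
      linarith
    have hfsum : ∀ a : V → ℝ, f a = ∑ z, φ z * a z := by
      intro a
      have ha : a = ∑ z, a z • e z := by
        funext w
        simp [e, Finset.sum_apply, Pi.single_apply]
      conv_lhs => rw [ha]
      rw [map_sum]
      refine Finset.sum_congr rfl (fun z _ => ?_)
      rw [map_smul, smul_eq_mul, mul_comm]
    -- K nonempty, f<0 on K, hence φ ≠ 0
    obtain ⟨v0⟩ := ‹Nonempty V›
    have hunit : (Pi.single v0 1 : V → ℝ) ∈ stdSimplex ℝ V := by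
      constructor
      · intro w
        by_cases hw : w = v0 <;> simp [hw, Pi.single_apply]
      · simp [Pi.single_apply]
    have hneg0 := hfu (L (Pi.single v0 1)) ⟨_, hunit, rfl⟩
    have hsumpos : 0 < ∑ z, φ z := by
      refine lt_of_le_of_ne (Finset.sum_nonneg (fun z _ => hφ z)) ?_
      intro hzero
      have hall : ∀ z, φ z = 0 := by
        intro z
        have := (Finset.sum_eq_zero_iff_of_nonneg (fun z _ => hφ z)).1 hzero.symm z (mem_univ z)
        exact this
      have : f (L (Pi.single v0 1)) = 0 := by
        rw [hfsum]; simp [hall]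
      linarith
    -- the point y = φ / Σφ
    set T := ∑ z, φ z with hT
    let y : V → ℝ := fun z => φ z / T
    have hy : y ∈ stdSimplex ℝ V := by
      constructor
      · intro w; exact div_nonneg (hφ w) hsumpos.le
      · simp only [y]; rw [← Finset.sum_div, ← hT]; exact div_self hsumpos.ne'
    have hval : f (L y) = 0 := by
      rw [hfsum]
      have hdouble : ∑ z, ∑ w, φ z * (S z w * φ w) = 0 := by
        have hsw : ∑ z, ∑ w, φ z * (S z w * φ w) = ∑ z, ∑ w, φ w * (S w z * φ z) :=
          Finset.sum_comm
        have hneg : ∑ z, ∑ w, φ w * (S w z * φ z) = - ∑ z, ∑ w, φ z * (S z w * φ w) := by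
          rw [← Finset.sum_neg_distrib]
          refine Finset.sum_congr rfl (fun z _ => ?_)
          rw [← Finset.sum_neg_distrib]
          refine Finset.sum_congr rfl (fun w _ => ?_)
          rw [hS w z]; ring
        linarith
      have : ∀ z, φ z * (L y) z = (∑ w, φ z * (S z w * φ w)) / T := by
        intro z
        change φ z * ∑ v, S z v * (φ v / T) = _
        rw [Finset.sum_div, Finset.mul_sum]
        refine Finset.sum_congr rfl (fun w _ => ?_)
        ring
      simp only [this]
      rw [← Finset.sum_div, hdouble, zero_div]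
    have := hfu (L y) ⟨y, hy, rfl⟩
    linarith
  · rw [Set.not_disjoint_iff] at hdisj
    obtain ⟨a, ⟨y, hy, rfl⟩, haC⟩ := hdisj
    exact ⟨y, hy.1, hy.2, fun z => haC z⟩

/-- The second-neighbourhood theorem for the class. -/
theorem result [Nonempty V] (r : V → V → Prop) (hr : IsOriented r)
    (hbad : ∀ x w, r x w → (¬ ∃ u, r w u ∧ r u x) →
      (∀ p, r p x → r p w) ∧ (∀ z, r w z → r x z ∨ ∃ u, r z u ∧ r u x))
    (weight : V → ℝ) (hweight : ∀ v, 0 ≤ weight v) :
    ∃ v, ∑ u ∈ N1 r v, weight u ≤ ∑ u ∈ N2 r v, weight u := by
  classical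
  -- the skew matrix
  let S : V → V → ℝ := fun a b => (if r a b then 1 else 0) - (if r b a then 1 else 0)
  have hS : ∀ a b, S a b = - S b a := by intro a b; simp only [S]; ring
  obtain ⟨y, hy0, hy1, hyS⟩ := skew_solution S hS
  -- weights of sets
  let W : Finset V → ℝ := fun s => ∑ u ∈ s, y u
  have hWnn : ∀ s, 0 ≤ W s := fun s => Finset.sum_nonneg (fun u _ => hy0 u)
  have hWmono : ∀ {s t : Finset V}, s ⊆ t → W s ≤ W t := fun h =>
    Finset.sum_le_sum_of_subset_of_nonneg h (fun u _ _ => hy0 u)
  let Out : V → Finset V := fun z => univ.filter (fun v => r z v)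
  let In : V → Finset V := fun z => univ.filter (fun v => r v z)
  have hSsum : ∀ z, ∑ v, S z v * y v = W (Out z) - W (In z) := by
    intro z
    simp only [W, Out, In, S, sub_mul, Finset.sum_sub_distrib, ite_mul, one_mul, zero_mul]
    rw [Finset.sum_filter, Finset.sum_filter]
  have hP : ∀ z, W (In z) ≤ W (Out z) := by
    intro z
    have := hyS z
    rw [hSsum] at this
    linarith
  -- complementary slackness
  have hdouble : ∑ z, y z * (W (Out z) - W (In z)) = 0 := by
    have h1 : ∑ z, ∑ v, y z * (S z v * y v) = 0 := by
      have hsw : ∑ z, ∑ w, y z * (S z w * y w) = ∑ z, ∑ w, y w * (S w z * y z) :=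
        Finset.sum_comm
      have hneg : ∑ z, ∑ w, y w * (S w z * y z) = - ∑ z, ∑ w, y z * (S z w * y w) := by
        rw [← Finset.sum_neg_distrib]
        refine Finset.sum_congr rfl (fun z _ => ?_)
        rw [← Finset.sum_neg_distrib]
        refine Finset.sum_congr rfl (fun w _ => ?_)
        rw [hS w z]; ring
      linarith
    calc ∑ z, y z * (W (Out z) - W (In z))
        = ∑ z, ∑ v, y z * (S z v * y v) := by
          refine Finset.sum_congr rfl (fun z _ => ?_)
          rw [← hSsum, Finset.mul_sum]
      _ = 0 := h1
  have hslack : ∀ z, 0 < y z → W (Out z) = W (In z) := by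
    intro z hz
    have hterm := (Finset.sum_eq_zero_iff_of_nonneg (fun z _ =>
      mul_nonneg (hy0 z) (sub_nonneg.2 (hP z)))).1 hdouble z (mem_univ z)
    have := (mul_eq_zero.1 hterm).resolve_left hz.ne'
    linarith
  -- the key inequality: for each x the in-neighbours are dominated by the 2-in-neighbours
  let In2 : V → Finset V := fun x => univ.filter (fun v => x ∈ N2 r v)
  have hkey : ∀ x, W (In x) ≤ W (In2 x) := by
    intro x
    let B : Finset V := (Out x).filter (fun w => ¬ ∃ u, r w u ∧ r u x)
    let G : Finset V := (Out x).filter (fun w => ∃ u, r w u ∧ r u x)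
    have hGsub : G ⊆ In2 x := by
      intro w hw
      simp only [G, Out, mem_filter, mem_univ, true_and] at hw
      simp only [In2, mem_filter, mem_univ, true_and, mem_N2]
      refine ⟨?_, hr.asymm _ _ hw.1, hw.2⟩
      rintro rfl
      exact hr.irrefl _ hw.1
    have hsplit : W (Out x) = W B + W G := by
      simp only [W, B, G]
      rw [← Finset.sum_filter_not_add_sum_filter (Out x) (fun w => ∃ u, r w u ∧ r u x)]
    by_cases hB0 : W B = 0
    · have h1 := hP x
      have h2 := hWmono hGsub
      linarith
    · -- some w in B with y w > 0 and nonpositive skew sum on B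
      have hBpos : 0 < W B := lt_of_le_of_ne (hWnn B) (Ne.symm hB0)
      let f : V → ℝ := fun w => W ((Out w).filter (· ∈ B)) - W ((In w).filter (· ∈ B))
      have hfsum : ∑ w ∈ B, y w * f w = 0 := by
        have hfexp : ∀ w, f w = ∑ v ∈ B, S w v * y v := by
          intro w
          simp only [f, W, Out, In, S, sub_mul, Finset.sum_sub_distrib, ite_mul, one_mul,
            zero_mul]
          congr 1
          · rw [Finset.filter_filter, ← Finset.sum_filter]
            congr 1
            ext v; simp [and_comm]
          · rw [Finset.filter_filter, ← Finset.sum_filter]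
            congr 1
            ext v; simp [and_comm]
        have h1 : ∑ z ∈ B, ∑ w ∈ B, y z * (S z w * y w) = 0 := by
          have hsw : ∑ z ∈ B, ∑ w ∈ B, y z * (S z w * y w) = ∑ z ∈ B, ∑ w ∈ B, y w * (S w z * y z) :=
            Finset.sum_comm
          have hneg : ∑ z ∈ B, ∑ w ∈ B, y w * (S w z * y z)
              = - ∑ z ∈ B, ∑ w ∈ B, y z * (S z w * y w) := by
            rw [← Finset.sum_neg_distrib]
            refine Finset.sum_congr rfl (fun z _ => ?_)
            rw [← Finset.sum_neg_distrib]
            refine Finset.sum_congr rfl (fun w _ => ?_)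
            rw [hS w z]; ring
          linarith
        calc ∑ w ∈ B, y w * f w = ∑ z ∈ B, ∑ w ∈ B, y z * (S z w * y w) := by
              refine Finset.sum_congr rfl (fun z _ => ?_)
              rw [hfexp, Finset.mul_sum]
          _ = 0 := h1
      have hexw : ∃ w ∈ B, 0 < y w ∧ f w ≤ 0 := by
        by_contra hno
        push Not at hno
        have hpos : 0 < ∑ w ∈ B, y w * f w := by
          have hnn : ∀ w ∈ B, 0 ≤ y w * f w := by
            intro w hw
            rcases (hy0 w).eq_or_lt with h | h
            · rw [← h]; simp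
            · exact (mul_pos h (hno w hw h)).le
          obtain ⟨w0, hw0, hw0pos⟩ : ∃ w0 ∈ B, 0 < y w0 := by
            by_contra hnone
            push Not at hnone
            apply hB0
            exact Finset.sum_eq_zero (fun u hu => le_antisymm (hnone u hu) (hy0 u))
          exact lt_of_lt_of_le (mul_pos hw0pos (hno w0 hw0 hw0pos))
            (Finset.single_le_sum hnn hw0)
        linarith
      obtain ⟨w, hwB, hwpos, hfw⟩ := hexw
      have hwmem : r x w ∧ ¬ ∃ u, r w u ∧ r u x := by
        simpa [B, Out] using hwB
      obtain ⟨ha, hb⟩ := hbad x w hwmem.1 hwmem.2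
      have heq := hslack w hwpos
      -- Out w = (Out w ∩ B) ⊔ (Out w \ B)
      let OB := (Out w).filter (· ∈ B)
      let OR := (Out w).filter (· ∉ B)
      let IB := (In w).filter (· ∈ B)
      have hOsplit : W (Out w) = W OB + W OR := by
        simp only [W, OB, OR]
        rw [← Finset.sum_filter_add_sum_filter_not (Out w) (· ∈ B)]
      -- In x ⊔ IB ⊆ In w, disjoint
      have hdisj : Disjoint (In x) IB := by
        rw [Finset.disjoint_left]
        intro v hv hv'
        simp only [In, IB, mem_filter, mem_univ, true_and] at hv hv'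
        have : r x v := by
          have := hv'.2
          simp only [B, Out, mem_filter, mem_univ, true_and] at this
          exact this.1
        exact hr.asymm _ _ hv this
      have hsubIn : In x ∪ IB ⊆ In w := by
        intro v hv
        rcases mem_union.1 hv with hv | hv
        · simp only [In, mem_filter, mem_univ, true_and] at hv ⊢
          exact ha v hv
        · simp only [IB, mem_filter] at hv
          exact hv.1
      have hIn : W (In x) + W IB ≤ W (In w) := by
        have := hWmono hsubIn
        have hu : W (In x ∪ IB) = W (In x) + W IB := by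
          simp only [W]; exact Finset.sum_union hdisj
        linarith
      have hfw' : W OB ≤ W IB := by
        have : f w = W OB - W IB := rfl
        linarith
      have hORsub : OR ⊆ In2 x := by
        intro z hz
        simp only [OR, Out, mem_filter, mem_univ, true_and] at hz
        have hzne : z ≠ x := by
          rintro rfl
          exact hr.asymm _ _ hwmem.1 hz.1
        have hzx : ¬ r z x := by
          intro hzx
          exact hwmem.2 ⟨z, hz.1, hzx⟩
        simp only [In2, mem_filter, mem_univ, true_and, mem_N2]
        rcases hb z hz.1 with hxz | hpath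
        · -- z ∈ Out x, not in B, hence has a 2-path
          have hzG : z ∈ G := by
            simp only [G, Out, mem_filter, mem_univ, true_and]
            refine ⟨hxz, ?_⟩
            by_contra hno
            apply hz.2
            simp only [B, Out, mem_filter, mem_univ, true_and]
            exact ⟨hxz, hno⟩
          have := hGsub hzG
          simpa [In2, mem_N2] using this
        · exact ⟨hzne.symm, hzx, hpath⟩
      have h3 := hWmono hORsub
      linarith
  -- summation
  have htotal : 0 ≤ ∑ v, y v * ((∑ u ∈ N2 r v, weight u) - ∑ u ∈ N1 r v, weight u) := by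
    have e1 : ∀ v, ∑ u ∈ N2 r v, weight u = ∑ x, (if x ∈ N2 r v then weight x else 0) := by
      intro v; rw [Finset.sum_ite_mem]; simp
    have e2 : ∀ v, ∑ u ∈ N1 r v, weight u = ∑ x, (if x ∈ N1 r v then weight x else 0) := by
      intro v; rw [Finset.sum_ite_mem]; simp
    have hswap : ∑ v, y v * ((∑ u ∈ N2 r v, weight u) - ∑ u ∈ N1 r v, weight u)
        = ∑ x, weight x * (W (In2 x) - W (In x)) := by
      calc ∑ v, y v * ((∑ u ∈ N2 r v, weight u) - ∑ u ∈ N1 r v, weight u)
          = ∑ v, ∑ x, y v * ((if x ∈ N2 r v then weight x else 0)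
              - (if x ∈ N1 r v then weight x else 0)) := by
            refine Finset.sum_congr rfl (fun v _ => ?_)
            rw [e1, e2, ← Finset.sum_sub_distrib, Finset.mul_sum]
        _ = ∑ x, ∑ v, y v * ((if x ∈ N2 r v then weight x else 0)
              - (if x ∈ N1 r v then weight x else 0)) := Finset.sum_comm
        _ = ∑ x, weight x * (W (In2 x) - W (In x)) := by
            refine Finset.sum_congr rfl (fun x _ => ?_)
            simp only [W, In2, In, mul_sub, Finset.sum_sub_distrib, Finset.sum_filter,
              Finset.mul_sum, mem_N1]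
            congr 1
            · refine Finset.sum_congr rfl (fun v _ => ?_)
              split_ifs <;> ring
            · refine Finset.sum_congr rfl (fun v _ => ?_)
              split_ifs <;> ring
    rw [hswap]
    exact Finset.sum_nonneg (fun x _ => mul_nonneg (hweight x) (sub_nonneg.2 (hkey x)))
  by_contra hno
  push Not at hno
  have hneg : ∑ v, y v * ((∑ u ∈ N2 r v, weight u) - ∑ u ∈ N1 r v, weight u) < 0 := by
    obtain ⟨v0, hv0⟩ : ∃ v0, 0 < y v0 := by
      by_contra hnone
      push Not at hnone
      have : ∑ v, y v ≤ 0 := Finset.sum_nonpos (fun v _ => hnone v)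
      linarith
    have hle : ∀ v ∈ (univ : Finset V), y v * ((∑ u ∈ N2 r v, weight u) - ∑ u ∈ N1 r v, weight u) ≤ 0 :=
      fun v _ => mul_nonpos_of_nonneg_of_nonpos (hy0 v) (by linarith [hno v])
    have hlt := mul_neg_of_pos_of_neg hv0 (by linarith [hno v0] :
      (∑ u ∈ N2 r v0, weight u) - ∑ u ∈ N1 r v0, weight u < 0)
    have := Finset.sum_lt_sum (s := (univ : Finset V))
      (f := fun v => y v * ((∑ u ∈ N2 r v, weight u) - ∑ u ∈ N1 r v, weight u))
      (g := fun _ => 0) hle ⟨v0, mem_univ _, hlt⟩
    simpa using this
  linarith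

end Vale.Agent.Results.P038.A_triangle_class
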